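import Mathlib

/-!
# P295 (stable coordinates): working definitions (helper87)

Theorem: let `f ∈ ℂ[x_i : i ∈ σ]` and let `o ∈ σ` be such that all second derivatives
`∂²f/∂x_i∂x_j`, `i, j ≠ o`, are constants.  If `f` is a stable coordinate, then `f` is a coordinate.

Plan.  By `hess_form`, `f = quadPoly o b a Q = b(x_o) + ∑ a_i(x_o) x_i + ∑ Q_ij x_i x_j`.  A linear
change of the `x_i`, `i ≠ o`, and completing squares bring `f` to the normal form
`NF o b a d = b(x_o) + ∑ a_i(x_o) x_i + ∑ d_i x_i²`, `a_i = 0` if `d_i ≠ 0`.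
If the `a_i` generate the unit ideal of `ℂ[x_o]`, then `NF` is a coordinate (Euclid, `pos`); if all
`a_i = 0` and `deg b = 1` too (`lin_coord`).  In all other cases `NF` is not a stable coordinate:
a stable coordinate has equal fibres over suitable finite fields (`spread`), and (`ff`) equal fibres
of `NF` imply equal fibres of `b` on `{x : a_i(x) = 0 ∀ i}`.
-/

namespace Vale.Agent.P295K

open MvPolynomial

/-- `f` is a coordinate: some automorphism of the polynomial ring sends `f` to a variable -/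
def IsCoord {σ : Type} (f : MvPolynomial σ ℂ) : Prop :=
  ∃ (i : σ) (φ : MvPolynomial σ ℂ ≃ₐ[ℂ] MvPolynomial σ ℂ), φ f = X i

/-- `f` is a stable coordinate: it is a coordinate after adding `m ≥ 1` new variables -/
def IsStableCoord {σ : Type} (f : MvPolynomial σ ℂ) : Prop :=
  ∃ m : ℕ, 1 ≤ m ∧ IsCoord (rename (Sum.inl : σ → σ ⊕ Fin m) f)

/-- all fibres have the same number of elements -/
def EqFib {α K : Type} (F : α → K) : Prop :=
  ∀ c c' : K, Nat.card {v // F v = c} = Nat.card {v // F v = c'}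

/-- normal form `b(x_o) + ∑ a_i(x_o) x_i + ∑ d_i x_i²` -/
noncomputable def NF {R : Type} [CommRing R] {σ : Type} [Fintype σ] (o : σ) (b : Polynomial R)
    (a : σ → Polynomial R) (d : σ → R) : MvPolynomial σ R :=
  Polynomial.aeval (X o) b + ∑ i, Polynomial.aeval (X o) (a i) * X i + ∑ i, C (d i) * X i ^ 2

/-- `b(x_o) + ∑ a_i(x_o) x_i + ∑ Q_ij x_i x_j` -/
noncomputable def quadPoly {σ : Type} [Fintype σ] (o : σ) (b : Polynomial ℂ)
    (a : σ → Polynomial ℂ) (Q : Matrix σ σ ℂ) : MvPolynomial σ ℂ :=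
  Polynomial.aeval (X o) b + ∑ i, Polynomial.aeval (X o) (a i) * X i
    + ∑ i, ∑ j, C (Q i j) * X i * X j

end Vale.Agent.P295K
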