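import Vale.Agent.P295K.Defs

namespace Vale.Agent.P295K

open MvPolynomial

theorem diag1_core {τ : Type} [Fintype τ] [DecidableEq τ] (Q : Matrix τ τ ℂ) (hQ : Q.IsSymm) :
    ∃ (R R' : Matrix τ τ ℂ) (d : τ → ℂ), R * R' = 1 ∧ R' * R = 1 ∧
      R.transpose * Q * R = Matrix.diagonal d := by
  have hB : LinearMap.IsSymm (Matrix.toBilin' Q) := by
    refine ⟨fun x y => ?_⟩
    simp only [RingHom.id_apply, Matrix.toBilin'_apply]
    rw [Finset.sum_comm]
    refine Finset.sum_congr rfl fun i _ => Finset.sum_congr rfl fun j _ => ?_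
    rw [← hQ.apply i j]
    ring
  have : Invertible (2 : ℂ) := invertibleOfNonzero two_ne_zero
  obtain ⟨v, hv⟩ := LinearMap.BilinForm.exists_orthogonal_basis hB
  have hc : Fintype.card (Fin (Module.finrank ℂ (τ → ℂ))) = Fintype.card τ := by
    rw [Fintype.card_fin, Module.finrank_fintype_fun_eq_card]
  let e : Fin (Module.finrank ℂ (τ → ℂ)) ≃ τ := Fintype.equivOfCardEq hc
  let v' : Module.Basis τ ℂ (τ → ℂ) := v.reindex e
  refine ⟨(Pi.basisFun ℂ τ).toMatrix v', v'.toMatrix (Pi.basisFun ℂ τ),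
    fun i => Matrix.toBilin' Q (v' i) (v' i), ?_, ?_, ?_⟩
  · exact Module.Basis.toMatrix_mul_toMatrix_flip _ _
  · exact Module.Basis.toMatrix_mul_toMatrix_flip _ _
  · ext i j
    have h1 : ((Pi.basisFun ℂ τ).toMatrix v').transpose * Q * (Pi.basisFun ℂ τ).toMatrix v' =
        Matrix.of fun i j => Matrix.toBilin' Q (v' i) (v' j) := by
      ext i j
      rw [Matrix.mul_apply, Matrix.of_apply, Matrix.toBilin'_apply, Finset.sum_comm]
      refine Finset.sum_congr rfl fun l _ => ?_
      rw [Matrix.mul_apply, Finset.sum_mul]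
      refine Finset.sum_congr rfl fun k _ => ?_
      rw [Matrix.transpose_apply, Module.Basis.toMatrix_apply, Module.Basis.toMatrix_apply,
        Pi.basisFun_repr, Pi.basisFun_repr]
    rw [h1, Matrix.of_apply, Matrix.diagonal_apply]
    by_cases hij : i = j
    · subst hij
      rw [if_pos rfl]
    · rw [if_neg hij]
      have h2 : v' i = v (e.symm i) := Module.Basis.reindex_apply _ _ _
      have h3 : v' j = v (e.symm j) := Module.Basis.reindex_apply _ _ _
      rw [h2, h3]
      exact hv (fun h => hij (e.symm.injective h))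

variable {σ : Type} [Fintype σ] [DecidableEq σ]

/-- DIAG1.  `LinearMap.BilinForm.exists_orthogonal_basis` for the form of `Q` on
`{i // i ≠ o} → ℂ`; reindex the basis by `{i // i ≠ o}`; `P` = matrix of the basis, extended by `1` at
`o`. -/
theorem exists_diag (o : σ) (Q : Matrix σ σ ℂ) (hQ : Q.IsSymm) (h0 : ∀ i, Q o i = 0) :
    ∃ (P P' : Matrix σ σ ℂ) (d : σ → ℂ), P * P' = 1 ∧ P' * P = 1 ∧
      (∀ i, P o i = if i = o then 1 else 0) ∧ (∀ i, P i o = if i = o then 1 else 0) ∧ d o = 0 ∧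
      P.transpose * Q * P = Matrix.diagonal d := by
  let e : {i // i = o} ⊕ {i // ¬ i = o} ≃ σ := Equiv.sumCompl (fun i => i = o)
  let Q' : Matrix {i // ¬ i = o} {i // ¬ i = o} ℂ := Q.submatrix Subtype.val Subtype.val
  have hQ' : Q'.IsSymm := by
    ext i j
    exact hQ.apply _ _
  obtain ⟨R, R', d, h1, h2, h3⟩ := diag1_core Q' hQ'
  have heo : e.symm o = Sum.inl ⟨o, rfl⟩ := Equiv.sumCompl_symm_apply_of_pos (p := fun i => i = o) rfl
  have hen : ∀ i (hi : ¬ i = o), e.symm i = Sum.inr ⟨i, hi⟩ := fun i hi =>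
    Equiv.sumCompl_symm_apply_of_neg (p := fun i => i = o) hi
  have hQe : Q = (Matrix.fromBlocks 0 0 0 Q').submatrix e.symm e.symm := by
    ext i j
    rw [Matrix.submatrix_apply]
    by_cases hi : i = o
    · subst hi
      rw [h0, heo]
      by_cases hj : j = i
      · subst hj
        rw [heo]
        rfl
      · rw [hen j hj]
        rfl
    · rw [hen i hi]
      by_cases hj : j = o
      · subst hj
        rw [← hQ.apply i j, h0, heo]
        rfl
      · rw [hen j hj]
        rfl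
  refine ⟨(Matrix.fromBlocks 1 0 0 R).submatrix e.symm e.symm,
    (Matrix.fromBlocks 1 0 0 R').submatrix e.symm e.symm,
    fun i => Sum.elim (fun _ => 0) d (e.symm i), ?_, ?_, ?_, ?_, ?_, ?_⟩
  · rw [Matrix.submatrix_mul_equiv, Matrix.fromBlocks_multiply, h1]
    simp
  · rw [Matrix.submatrix_mul_equiv, Matrix.fromBlocks_multiply, h2]
    simp
  · intro i
    rw [Matrix.submatrix_apply, heo]
    by_cases hi : i = o
    · subst hi
      rw [heo, if_pos rfl, Matrix.fromBlocks_apply₁₁, Matrix.one_apply_eq]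
    · rw [hen i hi, if_neg hi, Matrix.fromBlocks_apply₁₂]
      rfl
  · intro i
    rw [Matrix.submatrix_apply, heo]
    by_cases hi : i = o
    · subst hi
      rw [heo, if_pos rfl, Matrix.fromBlocks_apply₁₁, Matrix.one_apply_eq]
    · rw [hen i hi, if_neg hi, Matrix.fromBlocks_apply₂₁]
      rfl
  · show Sum.elim (fun _ => (0 : ℂ)) d (e.symm o) = 0
    rw [heo]
    rfl
  · rw [hQe, Matrix.transpose_submatrix, Matrix.submatrix_mul_equiv, Matrix.submatrix_mul_equiv,
      Matrix.fromBlocks_transpose, Matrix.fromBlocks_multiply, Matrix.fromBlocks_multiply]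
    ext i j
    rw [Matrix.submatrix_apply, Matrix.diagonal_apply]
    simp only [Matrix.transpose_zero, Matrix.transpose_one, Matrix.mul_zero, Matrix.zero_mul,
      add_zero, zero_add, h3]
    by_cases hij : i = j
    · subst hij
      rw [if_pos rfl]
      rcases e.symm i with k | k
      · rfl
      · rw [Matrix.fromBlocks_apply₂₂, Matrix.diagonal_apply_eq]
        rfl
    · rw [if_neg hij]
      have hne : e.symm i ≠ e.symm j := fun h => hij (e.symm.injective h)
      rcases hh : e.symm i with k | k <;> rcases hh' : e.symm j with l | l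
      · rfl
      · rfl
      · rfl
      · rw [Matrix.fromBlocks_apply₂₂, Matrix.diagonal_apply_ne]
        intro hkl
        apply hne
        rw [hh, hh', hkl]

/-- linear substitution -/
private noncomputable def DIAG2_L (P : Matrix σ σ ℂ) (i : σ) : MvPolynomial σ ℂ :=
  ∑ j, C (P i j) * X j

private theorem DIAG2_comp (P P' : Matrix σ σ ℂ) (h : P' * P = 1) :
    (aeval (DIAG2_L P) : MvPolynomial σ ℂ →ₐ[ℂ] MvPolynomial σ ℂ).comp (aeval (DIAG2_L P')) =
      AlgHom.id ℂ _ := by
  refine MvPolynomial.algHom_ext fun i => ?_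
  rw [AlgHom.comp_apply, aeval_X, AlgHom.id_apply]
  have h1 : (aeval (DIAG2_L P) : MvPolynomial σ ℂ →ₐ[ℂ] MvPolynomial σ ℂ) (DIAG2_L P' i) =
      ∑ j, ∑ k, C (P' i j * P j k) * X k := by
    unfold DIAG2_L
    rw [map_sum]
    refine Finset.sum_congr rfl fun j _ => ?_
    rw [map_mul, aeval_X, aeval_C, Finset.mul_sum]
    refine Finset.sum_congr rfl fun k _ => ?_
    rw [map_mul, ← mul_assoc]
    rfl
  rw [h1, Finset.sum_comm]
  have h2 : ∀ k, ∑ j, C (P' i j * P j k) * X k = C ((1 : Matrix σ σ ℂ) i k) * (X k : MvPolynomial σ ℂ) := by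
    intro k
    rw [← Finset.sum_mul, ← h, Matrix.mul_apply, map_sum]
  rw [Finset.sum_congr rfl fun k _ => h2 k, Finset.sum_eq_single i]
  · rw [Matrix.one_apply_eq, map_one, one_mul]
  · intro k _ hk
    rw [Matrix.one_apply_ne (Ne.symm hk), map_zero, zero_mul]
  · intro hi
    exact absurd (Finset.mem_univ i) hi

open Matrix in
private theorem DIAG2_quad (P Q : Matrix σ σ ℂ) (d : σ → ℂ)
    (h5 : P.transpose * Q * P = Matrix.diagonal d) :
    ∑ i, ∑ j, C (Q i j) * DIAG2_L P i * DIAG2_L P j = ∑ i, C (d i) * (X i : MvPolynomial σ ℂ) ^ 2 := by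
  obtain ⟨x, hx⟩ : ∃ x : σ → MvPolynomial σ ℂ, x = X := ⟨_, rfl⟩
  have hL : DIAG2_L P = (P.map C) *ᵥ x := by
    funext i
    rw [hx]
    rfl
  have e1 : ∑ i, ∑ j, C (Q i j) * DIAG2_L P i * DIAG2_L P j =
      DIAG2_L P ⬝ᵥ ((Q.map C) *ᵥ DIAG2_L P) := by
    unfold dotProduct mulVec dotProduct
    refine Finset.sum_congr rfl fun i _ => ?_
    rw [Finset.mul_sum]
    refine Finset.sum_congr rfl fun j _ => ?_
    show _ = DIAG2_L P i * (C (Q i j) * DIAG2_L P j)
    ring
  have e2 : DIAG2_L P ⬝ᵥ ((Q.map C) *ᵥ DIAG2_L P) =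
      x ⬝ᵥ ((P.map C).transpose *ᵥ ((Q.map C) *ᵥ ((P.map C) *ᵥ x))) := by
    rw [hL, dotProduct_mulVec x, vecMul_transpose]
  have e3 : (P.map C).transpose *ᵥ ((Q.map C) *ᵥ ((P.map C) *ᵥ x)) =
      ((P.transpose * Q * P).map (C : ℂ →+* MvPolynomial σ ℂ)) *ᵥ x := by
    rw [mulVec_mulVec, mulVec_mulVec, Matrix.map_mul, Matrix.map_mul, Matrix.transpose_map,
      Matrix.mul_assoc]
  rw [e1, e2, e3, h5, Matrix.diagonal_map (map_zero _)]
  unfold dotProduct
  refine Finset.sum_congr rfl fun i _ => ?_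
  rw [mulVec_diagonal, hx]
  ring

/-- DIAG2.  `ψ (X i) = ∑ j, C (P i j) * X j`, inverse with `P'`; `ψ (X o) = X o`. -/
theorem exists_diag_aut (o : σ) (b : Polynomial ℂ) (a : σ → Polynomial ℂ) (Q : Matrix σ σ ℂ)
    (ha : a o = 0) (P P' : Matrix σ σ ℂ) (d : σ → ℂ) (h1 : P * P' = 1) (h2 : P' * P = 1)
    (h3 : ∀ i, P o i = if i = o then 1 else 0) (h4 : ∀ i, P i o = if i = o then 1 else 0)
    (h5 : P.transpose * Q * P = Matrix.diagonal d) :
    ∃ (ψ : MvPolynomial σ ℂ ≃ₐ[ℂ] MvPolynomial σ ℂ) (a' : σ → Polynomial ℂ), a' o = 0 ∧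
      ψ (quadPoly o b a Q) = NF o b a' d := by
  refine ⟨AlgEquiv.ofAlgHom (aeval (DIAG2_L P)) (aeval (DIAG2_L P')) (DIAG2_comp P P' h2)
    (DIAG2_comp P' P h1), fun j => ∑ i, Polynomial.C (P i j) * a i, ?_, ?_⟩
  · show ∑ i, Polynomial.C (P i o) * a i = 0
    rw [Finset.sum_eq_single o]
    · rw [ha, mul_zero]
    · intro i _ hi
      rw [h4, if_neg hi, map_zero, zero_mul]
    · intro ho
      exact absurd (Finset.mem_univ o) ho
  · show (aeval (DIAG2_L P) : MvPolynomial σ ℂ →ₐ[ℂ] MvPolynomial σ ℂ) (quadPoly o b a Q) = _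
    obtain ⟨φ, hφ⟩ : ∃ φ : MvPolynomial σ ℂ →ₐ[ℂ] MvPolynomial σ ℂ, φ = aeval (DIAG2_L P) :=
      ⟨_, rfl⟩
    have hX : ∀ i, φ (X i) = DIAG2_L P i := fun i => by rw [hφ, aeval_X]
    have hXo : φ (X o) = X o := by
      rw [hX]
      unfold DIAG2_L
      rw [Finset.sum_eq_single o]
      · rw [h3, if_pos rfl, map_one, one_mul]
      · intro j _ hj
        rw [h3, if_neg hj, map_zero, zero_mul]
      · intro ho
        exact absurd (Finset.mem_univ o) ho
    have hpol : ∀ p : Polynomial ℂ, φ (Polynomial.aeval (X o) p) = Polynomial.aeval (X o) p := by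
      intro p
      rw [← Polynomial.aeval_algHom_apply, hXo]
    have hC : ∀ r : ℂ, φ (C r) = C r := fun r => by
      rw [hφ, aeval_C]
      rfl
    rw [← hφ]
    unfold quadPoly NF
    rw [map_add, map_add, hpol, ← DIAG2_quad P Q d h5, map_sum, map_sum]
    congr 1
    · congr 1
      have e1 : ∀ i, φ (Polynomial.aeval (X o) (a i) * X i) =
          ∑ j, Polynomial.aeval (X o) (a i) * (C (P i j) * X j) := by
        intro i
        rw [map_mul, hpol, hX, ← Finset.mul_sum]
        rfl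
      rw [Finset.sum_congr rfl fun i _ => e1 i, Finset.sum_comm]
      refine Finset.sum_congr rfl fun j _ => ?_
      rw [map_sum, Finset.sum_mul]
      refine Finset.sum_congr rfl fun i _ => ?_
      rw [map_mul, Polynomial.aeval_C]
      show _ = C (P i j) * _ * _
      ring
    · refine Finset.sum_congr rfl fun i _ => ?_
      rw [map_sum]
      refine Finset.sum_congr rfl fun j _ => ?_
      rw [map_mul, map_mul, hC, hX, hX]

/-- the endomorphism `X i ↦ X i - r i (X o)` -/
noncomputable def SQ_hom (o : σ) (r : σ → Polynomial ℂ) :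
    MvPolynomial σ ℂ →ₐ[ℂ] MvPolynomial σ ℂ :=
  aeval (fun i => X i - Polynomial.aeval (X o) (r i))

theorem SQ_hom_X (o : σ) (r : σ → Polynomial ℂ) (i : σ) :
    SQ_hom o r (X i) = X i - Polynomial.aeval (X o) (r i) := by
  unfold SQ_hom
  rw [aeval_X]

theorem SQ_hom_comp (o : σ) (r s : σ → Polynomial ℂ) (hr : r o = 0)
    (hrs : ∀ i, s i = - r i) : (SQ_hom o r).comp (SQ_hom o s) = AlgHom.id ℂ _ := by
  apply MvPolynomial.algHom_ext
  intro i
  have ho : SQ_hom o r (X o) = X o := by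
    rw [SQ_hom_X, hr, map_zero, sub_zero]
  rw [AlgHom.comp_apply, SQ_hom_X, map_sub, SQ_hom_X, ← Polynomial.aeval_algHom_apply, ho,
    AlgHom.id_apply, hrs, map_neg]
  ring

noncomputable def SQ_eqv (o : σ) (r : σ → Polynomial ℂ) (hr : r o = 0) :
    MvPolynomial σ ℂ ≃ₐ[ℂ] MvPolynomial σ ℂ :=
  AlgEquiv.ofAlgHom (SQ_hom o r) (SQ_hom o (fun i => - r i))
    (SQ_hom_comp o r _ hr fun _ => rfl)
    (SQ_hom_comp o _ _ (by rw [hr, neg_zero]) fun i => (neg_neg (r i)).symm)

/-- SQ.  Completing squares: `ψ (X i) = X i - C (1 / (2 d i)) * a_i(X o)` if `d i ≠ 0`,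
`ψ (X i) = X i` otherwise; `b' = b - ∑_{d i ≠ 0} C (1 / (4 d i)) * a_i²`,
`a' i = if d i = 0 then a i else 0`. -/
theorem exists_square (o : σ) (b : Polynomial ℂ) (a : σ → Polynomial ℂ) (d : σ → ℂ)
    (ha : a o = 0) (hd : d o = 0) :
    ∃ (ψ : MvPolynomial σ ℂ ≃ₐ[ℂ] MvPolynomial σ ℂ) (b' : Polynomial ℂ) (a' : σ → Polynomial ℂ),
      a' o = 0 ∧ (∀ i, d i ≠ 0 → a' i = 0) ∧ ψ (NF o b a d) = NF o b' a' d := by
  classical
  let r : σ → Polynomial ℂ := fun i =>
    if d i = 0 then 0 else Polynomial.C (1 / (2 * d i)) * a i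
  have hr : r o = 0 := if_pos hd
  let b' : Polynomial ℂ := b - ∑ i, Polynomial.C (d i) * r i ^ 2
  let a' : σ → Polynomial ℂ := fun i => if d i = 0 then a i else 0
  have hψ : ∀ i, SQ_eqv o r hr (X i) = X i - Polynomial.aeval (X o) (r i) := by
    intro i
    exact SQ_hom_X o r i
  have hψo : SQ_eqv o r hr (X o) = X o := by
    rw [hψ, hr, map_zero, sub_zero]
  have hae : ∀ p : Polynomial ℂ, SQ_eqv o r hr (Polynomial.aeval (X o) p) =
      Polynomial.aeval (X o) p := by
    intro p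
    rw [← Polynomial.aeval_algHom_apply, hψo]
  refine ⟨SQ_eqv o r hr, b', a', ?_, ?_, ?_⟩
  · simp only [a']
    rw [if_pos hd, ha]
  · intro i hi
    simp only [a']
    rw [if_neg hi]
  · have hC : ∀ i, (C (d i) : MvPolynomial σ ℂ) =
        Polynomial.aeval (X o) (Polynomial.C (d i)) := by
      intro i
      rw [Polynomial.aeval_C, algebraMap_eq]
    unfold NF
    rw [map_add, map_add, map_sum, map_sum, hae]
    have h1 : ∀ i, SQ_eqv o r hr (Polynomial.aeval (X o) (a i) * X i) =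
        Polynomial.aeval (X o) (a i) * (X i - Polynomial.aeval (X o) (r i)) := by
      intro i
      rw [map_mul, hae, hψ]
    have h2 : ∀ i, SQ_eqv o r hr (C (d i) * X i ^ 2) =
        C (d i) * (X i - Polynomial.aeval (X o) (r i)) ^ 2 := by
      intro i
      rw [map_mul, map_pow, hψ, hC i, hae]
    rw [Finset.sum_congr rfl fun i _ => h1 i, Finset.sum_congr rfl fun i _ => h2 i]
    have h3 : Polynomial.aeval (X o : MvPolynomial σ ℂ) b' =
        Polynomial.aeval (X o) b - ∑ i, C (d i) * Polynomial.aeval (X o) (r i) ^ 2 := by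
      simp only [b']
      rw [map_sub, map_sum]
      congr 1
      refine Finset.sum_congr rfl fun i _ => ?_
      rw [map_mul, map_pow, hC i]
    rw [h3]
    have h4 : ∀ i, Polynomial.aeval (X o : MvPolynomial σ ℂ) (a i) *
        (X i - Polynomial.aeval (X o) (r i)) +
        C (d i) * (X i - Polynomial.aeval (X o) (r i)) ^ 2 =
        Polynomial.aeval (X o) (a' i) * X i + C (d i) * X i ^ 2 -
          C (d i) * Polynomial.aeval (X o) (r i) ^ 2 := by
      intro i
      by_cases hi : d i = 0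
      · have h5 : r i = 0 := if_pos hi
        have h6 : a' i = a i := if_pos hi
        rw [h5, h6, hi, map_zero, C_0]
        ring
      · have h6 : a' i = 0 := if_neg hi
        have h7 : a i = Polynomial.C (2 * d i) * r i := by
          have h5 : r i = Polynomial.C (1 / (2 * d i)) * a i := if_neg hi
          rw [h5, ← mul_assoc, ← Polynomial.C_mul]
          have h8 : 2 * d i * (1 / (2 * d i)) = 1 := by field_simp
          rw [h8, Polynomial.C_1, one_mul]
        have h8 : (Polynomial.aeval (X o : MvPolynomial σ ℂ)) (Polynomial.C (2 * d i)) =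
            2 * C (d i) := by
          rw [Polynomial.aeval_C, algebraMap_eq, C_mul]
          rfl
        rw [h6, map_zero, h7, map_mul, h8]
        ring
    have h5 := Finset.sum_congr (rfl : (Finset.univ : Finset σ) = Finset.univ) fun i _ => h4 i
    rw [Finset.sum_add_distrib, Finset.sum_sub_distrib, Finset.sum_add_distrib] at h5
    rw [add_assoc, h5]
    ring

end Vale.Agent.P295K
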