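import Vale.Agent.P295K.Defs

namespace Vale.Agent.P295K

variable {σ K : Type} [Fintype σ] [DecidableEq σ] [Field K] [Finite K]

/-- FFE. -/
theorem eqFib_comp_equiv {α β L : Type} (e : α ≃ β) {F : β → L} :
    EqFib (fun x => F (e x)) ↔ EqFib F := by
  have h : ∀ c, Nat.card {x // F (e x) = c} = Nat.card {y // F y = c} := fun c =>
    Nat.card_congr (e.subtypeEquiv (fun x => Iff.rfl))
  constructor
  · intro H c c'
    rw [← h c, ← h c']
    exact H c c'
  · intro H c c'
    rw [h c, h c']
    exact H c c'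

private theorem ff_fst {α β L : Type} (F : α → L) (c : L) :
    Nat.card {p : α × β // F p.1 = c} = Nat.card {a // F a = c} * Nat.card β := by
  rw [← Nat.card_prod]
  exact Nat.card_congr (Equiv.prodSubtypeFstEquivSubtypeProd (p := fun a => F a = c))

/-- FF0.  A dummy variable: `(x, y) ↦ (update y o x, y o)` is a bijection of `K × (σ → K)` onto
`(σ → K) × K`. -/
theorem ff_dummy (o : σ) (G : K → (σ → K) → K)
    (hG : ∀ x y t, G x (Function.update y o t) = G x y)
    (h : EqFib (fun v : σ → K => G (v o) v)) : EqFib (fun p : K × (σ → K) => G p.1 p.2) := by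
  let E : K × (σ → K) ≃ (σ → K) × K :=
    { toFun := fun p => (Function.update p.2 o p.1, p.2 o)
      invFun := fun q => (q.1 o, Function.update q.1 o q.2)
      left_inv := by
        rintro ⟨x, y⟩
        simp
      right_inv := by
        rintro ⟨v, t⟩
        simp }
  have h1 : EqFib (fun q : (σ → K) × K => G (q.1 o) q.1) := by
    intro c c'
    have e1 := ff_fst (β := K) (fun v : σ → K => G (v o) v) c
    have e2 := ff_fst (β := K) (fun v : σ → K => G (v o) v) c'
    rw [e1, e2, h c c']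
  have h2 := (eqFib_comp_equiv E (F := fun q : (σ → K) × K => G (q.1 o) q.1)).2 h1
  have h3 : (fun p : K × (σ → K) => G ((E p).1 o) (E p).1) = fun p => G p.1 p.2 := by
    funext p
    change G (Function.update p.2 o p.1 o) (Function.update p.2 o p.1) = _
    rw [Function.update_self, hG]
  rw [h3] at h2
  exact h2

/-- FF1.  `#{(x, y) : F x - H y = c} = ∑_y #{x : F x = c + H y}`. -/
theorem ff_sub {α β : Type} [Finite α] [Finite β] (F : α → K) (H : β → K) (h : EqFib F) :
    EqFib (fun p : α × β => F p.1 - H p.2) := by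
  classical
  have := Fintype.ofFinite β
  have key : ∀ c, Nat.card {p : α × β // F p.1 - H p.2 = c} =
      Nat.card β * Nat.card {x // F x = 0} := by
    intro c
    have e1 : {p : α × β // F p.1 - H p.2 = c} ≃ Σ y : β, {x : α // F x = c + H y} :=
      { toFun := fun p => ⟨p.1.2, p.1.1, sub_eq_iff_eq_add.1 p.2⟩
        invFun := fun q => ⟨(q.2.1, q.1), by have := q.2.2; simp [this]⟩
        left_inv := fun p => rfl
        right_inv := fun q => rfl }
    rw [Nat.card_congr e1, Nat.card_sigma]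
    rw [Finset.sum_congr rfl fun y _ => h (c + H y) 0]
    rw [Finset.sum_const, smul_eq_mul, Finset.card_univ, Nat.card_eq_fintype_card (α := β)]
  intro c c'
  rw [key c, key c']

/-- FF2a.  A linear form `∑ e_i y_i + g` with `e ≠ 0` has equal fibres on `σ → K`, each of size `s`
with `|K| * s = |K|^σ`. -/
theorem card_lin (g : K) (e : σ → K) (he : e ≠ 0) (c : K) :
    Nat.card K * Nat.card {y : σ → K // g + ∑ i, e i * y i = c} = Nat.card (σ → K) := by
  obtain ⟨u, hu⟩ : ∃ u : σ → K, ∑ i, e i * u i = 1 := by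
    obtain ⟨i0, hi0⟩ := Function.ne_iff.1 he
    refine ⟨Pi.single i0 (e i0)⁻¹, ?_⟩
    rw [Finset.sum_eq_single i0]
    · rw [Pi.single_eq_same]
      exact mul_inv_cancel₀ hi0
    · intro j _ hj
      rw [Pi.single_eq_of_ne hj, mul_zero]
    · intro h
      exact absurd (Finset.mem_univ _) h
  have hs : ∀ (y : σ → K) (t : K), ∑ i, e i * (y i + t * u i) = ∑ i, e i * y i + t := by
    intro y t
    have : ∀ i, e i * (y i + t * u i) = e i * y i + t * (e i * u i) := fun i => by ring
    rw [Finset.sum_congr rfl fun i _ => this i, Finset.sum_add_distrib, ← Finset.mul_sum, hu,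
      mul_one]
  rw [← Nat.card_prod]
  refine Nat.card_congr
    { toFun := fun p => fun i => p.2.1 i + p.1 * u i
      invFun := fun v => (g + ∑ i, e i * v i - c,
        ⟨fun i => v i + (-(g + ∑ i, e i * v i - c)) * u i, by rw [hs]; ring⟩)
      left_inv := ?_
      right_inv := ?_ }
  · rintro ⟨t, y, hy⟩
    have h1 : g + ∑ i, e i * (y i + t * u i) - c = t := by
      rw [hs, ← hy]; ring
    refine Prod.ext h1 (Subtype.ext ?_)
    funext i
    simp only
    rw [h1]
    ring
  · intro v
    funext i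
    simp only
    ring

/-- FF2.  `|K| * #{(z, y) : g z + ∑ e_i(z) y_i = c} = |K^σ| * #{z : e z ≠ 0} +
|K| * |K^σ| * #{z : e z = 0, g z = c}` (use `card_lin`). -/
theorem ff_lin {Z : Type} [Finite Z] (g : Z → K) (e : Z → σ → K)
    (h : EqFib (fun p : Z × (σ → K) => g p.1 + ∑ i, e p.1 i * p.2 i)) :
    EqFib (fun z : {z : Z // e z = 0} => g z) := by
  classical
  have := Fintype.ofFinite Z
  have := Fintype.ofFinite K
  have hY : 0 < Nat.card (σ → K) := Nat.card_pos
  have hK : 0 < Nat.card K := Nat.card_pos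
  have hz : ∀ (c : K) (z : Z), Nat.card K * Nat.card {y : σ → K // g z + ∑ i, e z i * y i = c} =
      if e z = 0 then (if g z = c then Nat.card K * Nat.card (σ → K) else 0)
        else Nat.card (σ → K) := by
    intro c z
    split_ifs with h1 h2
    · have : ∀ y : σ → K, g z + ∑ i, e z i * y i = c := by
        intro y
        rw [h1]
        simpa using h2
      rw [Nat.card_congr (Equiv.subtypeUnivEquiv this)]
    · have : IsEmpty {y : σ → K // g z + ∑ i, e z i * y i = c} := by
        refine ⟨fun y => h2 ?_⟩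
        have hy := y.2
        have h0 : ∑ i, e z i * y.1 i = 0 := by simp [h1]
        rw [h0, add_zero] at hy
        exact hy
      rw [Nat.card_of_isEmpty (α := {y : σ → K // g z + ∑ i, e z i * y i = c}), mul_zero]
    · exact card_lin (g z) (e z) h1 c
  have key : ∀ c, Nat.card K * Nat.card {p : Z × (σ → K) // g p.1 + ∑ i, e p.1 i * p.2 i = c} =
      Nat.card K * Nat.card (σ → K) * Nat.card {z : {z : Z // e z = 0} // g z = c} +
        ∑ z ∈ Finset.univ.filter (fun z => ¬ e z = 0), Nat.card (σ → K) := by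
    intro c
    rw [Nat.card_congr (Equiv.subtypeProdEquivSigmaSubtype
      (fun (z : Z) (y : σ → K) => g z + ∑ i, e z i * y i = c)), Nat.card_sigma, Finset.mul_sum,
      Finset.sum_congr rfl fun z _ => hz c z, Finset.sum_ite, Finset.sum_ite,
      Finset.sum_const_zero, add_zero, Finset.sum_const, smul_eq_mul]
    have h1 : Nat.card {z : {z : Z // e z = 0} // g z = c} =
        (Finset.filter (fun z => g z = c) (Finset.filter (fun z => e z = 0) Finset.univ)).card := by
      rw [Nat.card_congr (Equiv.subtypeSubtypeEquivSubtypeInter (fun z : Z => e z = 0)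
        (fun z => g z = c)), Nat.card_eq_fintype_card, Fintype.card_subtype, Finset.filter_filter]
    rw [h1]
    ring
  intro c c'
  have h2 := key c
  have h3 := key c'
  rw [show Nat.card {p : Z × (σ → K) // g p.1 + ∑ i, e p.1 i * p.2 i = c} =
    Nat.card {p : Z × (σ → K) // g p.1 + ∑ i, e p.1 i * p.2 i = c'} from h c c'] at h2
  rw [h2] at h3
  have h4 := Nat.add_right_cancel h3
  exact Nat.eq_of_mul_eq_mul_left (Nat.mul_pos hK hY) h4

/-- FF3.  `a i x + 2 * d i * u i = 0` means `a i x = 0` and (`u i = 0` or `d i = 0`); the set is the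
product of `{x // ∀ i, a i x = 0}` and `{u // ∀ i, d i ≠ 0 → u i = 0}` (nonempty) and the function is
`b x` on it. -/
theorem ff_prod (h2 : (2 : K) ≠ 0) (b : K → K) (a : σ → K → K) (d : σ → K)
    (hd : ∀ i, d i ≠ 0 → ∀ x, a i x = 0)
    (h : EqFib (fun z : {z : K × (σ → K) // (fun i => a i z.1 + 2 * d i * z.2 i) = 0} =>
      b z.1.1 - ∑ i, d i * z.1.2 i ^ 2)) :
    EqFib (fun x : {x : K // ∀ i, a i x = 0} => b x) := by
  have hiff : ∀ (x : K) (u : σ → K), (fun i => a i x + 2 * d i * u i) = 0 ↔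
      (∀ i, a i x = 0) ∧ ∀ i, d i ≠ 0 → u i = 0 := by
    intro x u
    constructor
    · intro h
      have h' : ∀ i, a i x + 2 * d i * u i = 0 := fun i => congrFun h i
      have h1 : ∀ i, a i x = 0 := by
        intro i
        by_cases hdi : d i = 0
        · have := h' i
          simpa [hdi] using this
        · exact hd i hdi x
      refine ⟨h1, fun i hdi => ?_⟩
      have := h' i
      rw [h1 i, zero_add] at this
      rcases mul_eq_zero.1 this with h3 | h3
      · exact absurd h3 (mul_ne_zero h2 hdi)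
      · exact h3
    · rintro ⟨h1, h3⟩
      funext i
      change a i x + 2 * d i * u i = 0
      rw [h1 i]
      by_cases hdi : d i = 0
      · simp [hdi]
      · simp [h3 i hdi]
  let E : {z : K × (σ → K) // (fun i => a i z.1 + 2 * d i * z.2 i) = 0} ≃
      {x : K // ∀ i, a i x = 0} × {u : σ → K // ∀ i, d i ≠ 0 → u i = 0} :=
    { toFun := fun z => (⟨z.1.1, ((hiff _ _).1 z.2).1⟩, ⟨z.1.2, ((hiff _ _).1 z.2).2⟩)
      invFun := fun q => ⟨(q.1.1, q.2.1), (hiff _ _).2 ⟨q.1.2, q.2.2⟩⟩
      left_inv := fun z => rfl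
      right_inv := fun q => rfl }
  have h3 : (fun z : {z : K × (σ → K) // (fun i => a i z.1 + 2 * d i * z.2 i) = 0} =>
      b z.1.1 - ∑ i, d i * z.1.2 i ^ 2) = fun z => (fun q : {x : K // ∀ i, a i x = 0} ×
        {u : σ → K // ∀ i, d i ≠ 0 → u i = 0} => b q.1) (E z) := by
    funext z
    have h4 : ∑ i, d i * z.1.2 i ^ 2 = 0 := by
      refine Finset.sum_eq_zero fun i _ => ?_
      by_cases hdi : d i = 0
      · rw [hdi, zero_mul]
      · rw [((hiff _ _).1 z.2).2 i hdi]
        ring
    rw [h4, sub_zero]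
    rfl
  rw [h3] at h
  have h5 := (eqFib_comp_equiv E (F := fun q : {x : K // ∀ i, a i x = 0} ×
        {u : σ → K // ∀ i, d i ≠ 0 → u i = 0} => b q.1)).1 h
  have : Nonempty {u : σ → K // ∀ i, d i ≠ 0 → u i = 0} := ⟨⟨0, fun _ _ => rfl⟩⟩
  have h6 : 0 < Nat.card {u : σ → K // ∀ i, d i ≠ 0 → u i = 0} := Nat.card_pos
  intro c c'
  have h7 := h5 c c'
  have e1 := ff_fst (β := {u : σ → K // ∀ i, d i ≠ 0 → u i = 0})
    (fun x : {x : K // ∀ i, a i x = 0} => b x) c
  have e2 := ff_fst (β := {u : σ → K // ∀ i, d i ≠ 0 → u i = 0})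
    (fun x : {x : K // ∀ i, a i x = 0} => b x) c'
  rw [e1, e2] at h7
  exact Nat.eq_of_mul_eq_mul_right h6 h7

/-- FF.  `ff_dummy`, then `ff_sub` with `H w = ∑ d_i w_i²`, then the bijection
`((x, y), w) ↦ ((x, u), y)`, `u = y - w`: the function becomes
`b x - ∑ d_i u_i² + ∑ (a_i(x) + 2 d_i u_i) y_i`; then `ff_lin`, `ff_prod`. -/
theorem ff (h2 : (2 : K) ≠ 0) (o : σ) (b : K → K) (a : σ → K → K) (d : σ → K)
    (hao : ∀ x, a o x = 0) (hdo : d o = 0) (hd : ∀ i, d i ≠ 0 → ∀ x, a i x = 0)
    (h : EqFib (fun v : σ → K => b (v o) + ∑ i, a i (v o) * v i + ∑ i, d i * v i ^ 2)) :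
    EqFib (fun x : {x : K // ∀ i, a i x = 0} => b x) := by
  have h1 := ff_dummy o (fun (x : K) (y : σ → K) => b x + ∑ i, a i x * y i + ∑ i, d i * y i ^ 2)
    (by
      intro x y t
      have e1 : ∑ i, a i x * Function.update y o t i = ∑ i, a i x * y i := by
        refine Finset.sum_congr rfl fun i _ => ?_
        by_cases hi : i = o
        · subst hi
          rw [hao, zero_mul, zero_mul]
        · rw [Function.update_of_ne hi]
      have e2 : ∑ i, d i * Function.update y o t i ^ 2 = ∑ i, d i * y i ^ 2 := by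
        refine Finset.sum_congr rfl fun i _ => ?_
        by_cases hi : i = o
        · subst hi
          rw [hdo, zero_mul, zero_mul]
        · rw [Function.update_of_ne hi]
      simp only [e1, e2]) h
  have h3 := ff_sub _ (fun w : σ → K => ∑ i, d i * w i ^ 2) h1
  let E : (K × (σ → K)) × (σ → K) ≃ (K × (σ → K)) × (σ → K) :=
    { toFun := fun q => ((q.1.1, q.2), q.2 - q.1.2)
      invFun := fun q => ((q.1.1, q.1.2 - q.2), q.1.2)
      left_inv := by
        rintro ⟨⟨x, u⟩, y⟩
        simp
      right_inv := by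
        rintro ⟨⟨x, u⟩, y⟩
        simp }
  have h4 := (eqFib_comp_equiv E).2 h3
  refine ff_prod h2 b a d hd (ff_lin (fun z : K × (σ → K) => b z.1 - ∑ i, d i * z.2 i ^ 2)
    (fun z : K × (σ → K) => fun i => a i z.1 + 2 * d i * z.2 i) ?_)
  have h5 : (fun p : (K × (σ → K)) × (σ → K) => (b p.1.1 - ∑ i, d i * p.1.2 i ^ 2) +
      ∑ i, (a i p.1.1 + 2 * d i * p.1.2 i) * p.2 i) = fun q =>
      (fun p : (K × (σ → K)) × (σ → K) =>
        (b p.1.1 + ∑ i, a i p.1.1 * p.1.2 i + ∑ i, d i * p.1.2 i ^ 2) -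
          ∑ i, d i * p.2 i ^ 2) (E q) := by
    funext ⟨⟨x, u⟩, y⟩
    change (b x - ∑ i, d i * u i ^ 2) + ∑ i, (a i x + 2 * d i * u i) * y i =
      (b x + ∑ i, a i x * y i + ∑ i, d i * y i ^ 2) - ∑ i, d i * (y - u) i ^ 2
    have e1 : ∑ i, (a i x + 2 * d i * u i) * y i =
        ∑ i, a i x * y i + ∑ i, (d i * y i ^ 2 - d i * (y - u) i ^ 2 + d i * u i ^ 2) := by
      rw [← Finset.sum_add_distrib]
      refine Finset.sum_congr rfl fun i _ => ?_
      rw [Pi.sub_apply]
      ring
    rw [e1, Finset.sum_add_distrib, Finset.sum_sub_distrib]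
    ring
  rw [h5]
  exact h4

/-- CNT.  Equal fibres: `|K| * #fibre = #α`. -/
theorem card_eq_of_eqFib {α : Type} [Finite α] {F : α → K} (h : EqFib F) (c : K) :
    Nat.card K * Nat.card {v // F v = c} = Nat.card α := by
  classical
  have := Fintype.ofFinite K
  rw [← Nat.card_congr (Equiv.sigmaFiberEquiv F), Nat.card_sigma,
    Finset.sum_congr rfl fun c' _ => h c' c, Finset.sum_const, smul_eq_mul, Finset.card_univ,
    Nat.card_eq_fintype_card (α := K)]

end Vale.Agent.P295K
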