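import Vale.Agent.P295K.Defs

namespace Vale.Agent.P295K

open MvPolynomial

variable {σ : Type} [Fintype σ] [DecidableEq σ]

/-- HESS1.  Characteristic zero: `coeff s (pderiv i h) = (s i + 1) * coeff (s + single i 1) h`, so all
monomials of `h` are powers of `X o`. -/
theorem exists_univariate (o : σ) (h : MvPolynomial σ ℂ) (hh : ∀ i, i ≠ o → pderiv i h = 0) :
    ∃ p : Polynomial ℂ, h = Polynomial.aeval (X o) p := by
  classical
  have key : ∀ s ∈ h.support, s = Finsupp.single o (s o) := by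
    intro s hs
    ext i
    by_cases hi : i = o
    · subst hi
      simp
    · rw [Finsupp.single_eq_of_ne hi]
      by_contra hne
      have h1 := coeff_pderiv (i := i) h (s - Finsupp.single i 1)
      have h2 : s - Finsupp.single i 1 + Finsupp.single i 1 = s := by
        apply tsub_add_cancel_of_le
        rw [Finsupp.single_le_iff]
        omega
      rw [hh i hi, h2, coeff_zero] at h1
      rw [mem_support_iff] at hs
      have h3 : (((s - Finsupp.single i 1 : σ →₀ ℕ) i : ℕ) : ℂ) + 1 ≠ 0 :=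
        Nat.cast_add_one_ne_zero _
      exact mul_ne_zero hs h3 h1.symm
  refine ⟨∑ s ∈ h.support, Polynomial.monomial (s o) (coeff s h), ?_⟩
  conv_lhs => rw [h.as_sum]
  rw [map_sum]
  refine Finset.sum_congr rfl fun s hs => ?_
  rw [Polynomial.aeval_monomial, algebraMap_eq, C_mul_X_pow_eq_monomial, ← key s hs]

theorem HESS2_comm (i j : σ) (f : MvPolynomial σ ℂ) :
    pderiv i (pderiv j f) = pderiv j (pderiv i f) := by
  by_cases hij : i = j
  · rw [hij]
  · ext m
    rw [coeff_pderiv, coeff_pderiv, coeff_pderiv, coeff_pderiv]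
    have h1 : (m + Finsupp.single i 1 : σ →₀ ℕ) j = m j := by
      rw [Finsupp.add_apply, Finsupp.single_eq_of_ne (Ne.symm hij), add_zero]
    have h2 : (m + Finsupp.single j 1 : σ →₀ ℕ) i = m i := by
      rw [Finsupp.add_apply, Finsupp.single_eq_of_ne hij, add_zero]
    rw [h1, h2, add_right_comm m]
    ring

theorem HESS2_lin (q : σ → ℂ) (i : σ) :
    pderiv i (∑ l, C (q l) * X l : MvPolynomial σ ℂ) = C (q i) := by
  rw [map_sum, Finset.sum_eq_single i]
  · rw [pderiv_C_mul, pderiv_X_self, mul_one]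
  · intro l _ hl
    rw [pderiv_C_mul, pderiv_X_of_ne hl, mul_zero]
  · intro hi
    exact absurd (Finset.mem_univ i) hi

theorem HESS2_quad (Q : Matrix σ σ ℂ) (j : σ) :
    pderiv j (∑ k, ∑ l, C (Q k l) * X k * X l : MvPolynomial σ ℂ) =
      ∑ l, C (Q j l) * X l + ∑ k, C (Q k j) * X k := by
  have h1 : ∀ k, pderiv j (∑ l, C (Q k l) * X k * X l : MvPolynomial σ ℂ) =
      (if k = j then ∑ l, C (Q k l) * X l else 0) + C (Q k j) * X k := by
    intro k
    have h2 : (∑ l, C (Q k l) * X k * X l : MvPolynomial σ ℂ) = X k * ∑ l, C (Q k l) * X l := by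
      rw [Finset.mul_sum]
      refine Finset.sum_congr rfl fun l _ => ?_
      ring
    rw [h2, pderiv_mul, HESS2_lin]
    by_cases hk : k = j
    · subst hk
      rw [if_pos rfl, pderiv_X_self]
      ring
    · rw [if_neg hk, pderiv_X_of_ne hk]
      ring
  rw [map_sum, Finset.sum_congr rfl fun k _ => h1 k, Finset.sum_add_distrib,
    Finset.sum_ite_eq' Finset.univ j, if_pos (Finset.mem_univ j)]

theorem HESS2_ae (o : σ) (p : Polynomial ℂ) {i : σ} (hi : i ≠ o) :
    pderiv i (Polynomial.aeval (X o : MvPolynomial σ ℂ) p) = 0 := by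
  induction p using Polynomial.induction_on' with
  | add p q hp hq => rw [map_add, map_add, hp, hq, add_zero]
  | monomial n c =>
    rw [Polynomial.aeval_monomial, algebraMap_eq, pderiv_C_mul, pderiv_pow,
      pderiv_X_of_ne (Ne.symm hi), mul_zero, mul_zero]

theorem HESS2_alin (o : σ) (a : σ → Polynomial ℂ) {i : σ} (hi : i ≠ o) :
    pderiv i (∑ j, Polynomial.aeval (X o : MvPolynomial σ ℂ) (a j) * X j) =
      Polynomial.aeval (X o) (a i) := by
  rw [map_sum, Finset.sum_eq_single i]
  · rw [pderiv_mul, HESS2_ae o _ hi, pderiv_X_self, zero_mul, mul_one, zero_add]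
  · intro l _ hl
    rw [pderiv_mul, HESS2_ae o _ hi, pderiv_X_of_ne hl, zero_mul, mul_zero, zero_add]
  · intro hi
    exact absurd (Finset.mem_univ i) hi

/-- HESS2.  With `c i j` the constants (`c i j = c j i`: `pderiv` commute), `Q i j = c i j / 2` for
`i, j ≠ o`, `0` otherwise, `g = f - ∑ Q_ij X_i X_j` has all `∂²g/∂x_i∂x_j = 0`, so
`∂g/∂x_i = a_i(x_o)` (`exists_univariate`) and `g - ∑ a_i(x_o) X_i = b(x_o)`. -/
theorem hess_form (o : σ) (f : MvPolynomial σ ℂ)
    (h : ∀ i j, i ≠ o → j ≠ o → ∃ c : ℂ, pderiv i (pderiv j f) = C c) :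
    ∃ (b : Polynomial ℂ) (a : σ → Polynomial ℂ) (Q : Matrix σ σ ℂ), a o = 0 ∧ Q.IsSymm ∧
      (∀ i, Q o i = 0) ∧ f = quadPoly o b a Q := by
  classical
  choose c hc using h
  have hsymm : ∀ i j (hi : i ≠ o) (hj : j ≠ o), c i j hi hj = c j i hj hi := by
    intro i j hi hj
    have h1 := hc i j hi hj
    rw [HESS2_comm, hc j i hj hi] at h1
    exact (C_injective σ ℂ h1).symm
  let Q : Matrix σ σ ℂ := fun i j =>
    if hi : i = o then 0 else if hj : j = o then 0 else c i j hi hj / 2
  have hQ : ∀ i j (hi : i ≠ o) (hj : j ≠ o), Q i j = c i j hi hj / 2 := by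
    intro i j hi hj
    simp only [Q]
    rw [dif_neg hi, dif_neg hj]
  have hQs : ∀ i j, Q i j = Q j i := by
    intro i j
    by_cases hi : i = o
    · by_cases hj : j = o
      · rw [hi, hj]
      · simp only [Q]
        rw [dif_pos hi, dif_neg hj, dif_pos hi]
    · by_cases hj : j = o
      · simp only [Q]
        rw [dif_neg hi, dif_pos hj, dif_pos hj]
      · rw [hQ i j hi hj, hQ j i hj hi, hsymm i j hi hj]
  have hg : ∀ i j, i ≠ o → j ≠ o →
      pderiv i (pderiv j (f - ∑ i, ∑ j, C (Q i j) * X i * X j)) = 0 := by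
    intro i j hi hj
    rw [map_sub, map_sub, hc i j hi hj, HESS2_quad, map_add, HESS2_lin, HESS2_lin (fun k => Q k j),
      hQs j i, ← C_add, hQ i j hi hj, add_halves, sub_self]
  have hex : ∀ j, j ≠ o → ∃ p : Polynomial ℂ,
      pderiv j (f - ∑ i, ∑ j, C (Q i j) * X i * X j) = Polynomial.aeval (X o) p :=
    fun j hj => exists_univariate o _ (fun i hi => hg i j hi hj)
  choose a₀ ha₀ using hex
  let a : σ → Polynomial ℂ := fun j => if hj : j = o then 0 else a₀ j hj
  have hao : a o = 0 := dif_pos rfl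
  have haj : ∀ j (hj : j ≠ o), pderiv j (f - ∑ i, ∑ j, C (Q i j) * X i * X j) =
      Polynomial.aeval (X o) (a j) := by
    intro j hj
    rw [ha₀ j hj]
    simp only [a]
    rw [dif_neg hj]
  obtain ⟨b, hb⟩ := exists_univariate o
    (f - (∑ i, ∑ j, C (Q i j) * X i * X j) - ∑ i, Polynomial.aeval (X o) (a i) * X i) (by
      intro i hi
      rw [map_sub, haj i hi, HESS2_alin o a hi, sub_self])
  refine ⟨b, a, Q, hao, ?_, ?_, ?_⟩
  · ext i j
    exact hQs j i
  · intro i
    exact dif_pos rfl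
  · unfold quadPoly
    rw [← hb]
    ring

/-- HESS3.  `totalDegree f ≤ 2`: the second derivatives have total degree `0`. -/
theorem hess_of_totalDegree (f : MvPolynomial σ ℂ) (hf : f.totalDegree ≤ 2) (i j : σ) :
    ∃ c : ℂ, pderiv i (pderiv j f) = C c := by
  refine ⟨coeff 0 (pderiv i (pderiv j f)), ?_⟩
  ext m
  rw [coeff_C]
  by_cases hm : 0 = m
  · rw [if_pos hm, hm]
  · rw [if_neg hm, coeff_pderiv, coeff_pderiv]
    have h1 : coeff (m + Finsupp.single i 1 + Finsupp.single j 1) f = 0 := by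
      apply coeff_eq_zero_of_totalDegree_lt
      have h2 : (m + Finsupp.single i 1 + Finsupp.single j 1 : σ →₀ ℕ).degree =
          m.degree + 1 + 1 := by
        rw [map_add, map_add, Finsupp.degree_single, Finsupp.degree_single]
      have h3 : m.degree ≠ 0 := by
        rw [Ne, Finsupp.degree_eq_zero_iff]
        exact fun h => hm h.symm
      have h4 : ∑ x ∈ (m + Finsupp.single i 1 + Finsupp.single j 1 : σ →₀ ℕ).support,
          (m + Finsupp.single i 1 + Finsupp.single j 1 : σ →₀ ℕ) x =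
          (m + Finsupp.single i 1 + Finsupp.single j 1 : σ →₀ ℕ).degree := rfl
      omega
    rw [h1, zero_mul, zero_mul]

end Vale.Agent.P295K
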