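import Vale.Agent.P295K.Defs

namespace Vale.Agent.P295K

open MvPolynomial

variable {σ : Type}

/-- INV1. -/
theorem isCoord_map (ψ : MvPolynomial σ ℂ ≃ₐ[ℂ] MvPolynomial σ ℂ) {f : MvPolynomial σ ℂ}
    (h : IsCoord (ψ f)) : IsCoord f := by
  obtain ⟨i, φ, hφ⟩ := h
  exact ⟨i, ψ.trans φ, hφ⟩

/-- the extension of an endomorphism by the identity on the new variables -/
private noncomputable def INV2_ext (m : ℕ) (ψ : MvPolynomial σ ℂ →ₐ[ℂ] MvPolynomial σ ℂ) :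
    MvPolynomial (σ ⊕ Fin m) ℂ →ₐ[ℂ] MvPolynomial (σ ⊕ Fin m) ℂ :=
  aeval (Sum.elim (fun i => rename Sum.inl (ψ (X i))) (fun j => X (Sum.inr j)))

private theorem INV2_inl (m : ℕ) (ψ : MvPolynomial σ ℂ →ₐ[ℂ] MvPolynomial σ ℂ)
    (g : MvPolynomial σ ℂ) : INV2_ext m ψ (rename Sum.inl g) = rename Sum.inl (ψ g) := by
  have h : (INV2_ext m ψ).comp (rename Sum.inl) =
      (rename (Sum.inl : σ → σ ⊕ Fin m)).comp ψ := by
    apply MvPolynomial.algHom_ext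
    intro i
    simp [INV2_ext]
  exact DFunLike.congr_fun h g

private theorem INV2_comp (m : ℕ) (ψ φ : MvPolynomial σ ℂ →ₐ[ℂ] MvPolynomial σ ℂ)
    (h : ψ.comp φ = AlgHom.id ℂ _) : (INV2_ext m ψ).comp (INV2_ext m φ) = AlgHom.id ℂ _ := by
  apply MvPolynomial.algHom_ext
  rintro (i | j)
  · have h1 : INV2_ext m φ (X (Sum.inl i)) = rename Sum.inl (φ (X i)) := by
      simp [INV2_ext]
    have h2 : ψ (φ (X i)) = X i := by
      have := DFunLike.congr_fun h (X i)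
      simpa using this
    rw [AlgHom.comp_apply, h1, INV2_inl, h2, rename_X, AlgHom.id_apply]
  · have h1 : ∀ χ : MvPolynomial σ ℂ →ₐ[ℂ] MvPolynomial σ ℂ,
        INV2_ext m χ (X (Sum.inr j)) = X (Sum.inr j) := by
      intro χ
      simp [INV2_ext]
    rw [AlgHom.comp_apply, h1, h1, AlgHom.id_apply]

/-- INV2.  Extend `ψ` to the polynomial ring in `σ ⊕ Fin m` by the identity on the new variables:
`aeval (Sum.elim (fun i => rename inl (ψ (X i))) (fun j => X (inr j)))`, same for `ψ.symm`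
(`AlgEquiv.ofAlgHom`, `MvPolynomial.algHom_ext`); call it `Ψ`; `Ψ (rename inl g) = rename inl (ψ g)`. -/
theorem exists_ext (m : ℕ) (ψ : MvPolynomial σ ℂ ≃ₐ[ℂ] MvPolynomial σ ℂ) :
    ∃ Ψ : MvPolynomial (σ ⊕ Fin m) ℂ ≃ₐ[ℂ] MvPolynomial (σ ⊕ Fin m) ℂ,
      ∀ g : MvPolynomial σ ℂ, Ψ (rename Sum.inl g) = rename Sum.inl (ψ g) := by
  refine ⟨AlgEquiv.ofAlgHom (INV2_ext m (ψ : MvPolynomial σ ℂ →ₐ[ℂ] MvPolynomial σ ℂ))
    (INV2_ext m (ψ.symm : MvPolynomial σ ℂ →ₐ[ℂ] MvPolynomial σ ℂ))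
    (INV2_comp m _ _ ?_) (INV2_comp m _ _ ?_), ?_⟩
  · ext x
    simp
  · ext x
    simp
  · intro g
    exact INV2_inl m _ g

theorem isStableCoord_map (ψ : MvPolynomial σ ℂ ≃ₐ[ℂ] MvPolynomial σ ℂ) {f : MvPolynomial σ ℂ}
    (h : IsStableCoord f) : IsStableCoord (ψ f) := by
  obtain ⟨m, hm, i, φ, hφ⟩ := h
  obtain ⟨Ψ, hΨ⟩ := exists_ext m ψ
  refine ⟨m, hm, i, Ψ.symm.trans φ, ?_⟩
  rw [← hφ]
  show φ (Ψ.symm (rename Sum.inl (ψ f))) = φ (rename Sum.inl f)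
  rw [← hΨ, AlgEquiv.symm_apply_apply]

end Vale.Agent.P295K
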