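import Vale.Agent.P295K.Defs

namespace Vale.Agent.P295K

open MvPolynomial

private theorem SP1_fin (K : Type) [Field K] [Module.Finite ℤ K] : Finite K := by
  have hint : Algebra.IsIntegral ℤ K := inferInstance
  have hn : ¬ Function.Injective (algebraMap ℤ K) := by
    intro hinj
    exact Int.not_isField (isField_of_isIntegral_of_isField hinj (Field.toIsField K))
  have h2 : ∃ n : ℤ, n ≠ 0 ∧ (algebraMap ℤ K) n = 0 := by
    by_contra hc
    push Not at hc
    apply hn
    rw [injective_iff_map_eq_zero]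
    intro a ha
    by_contra h
    exact hc a h ha
  obtain ⟨n, hn0, hn1⟩ := h2
  apply Module.finite_of_fg_torsion K
  intro x
  refine ⟨⟨n, mem_nonZeroDivisors_of_ne_zero hn0⟩, ?_⟩
  show n • x = 0
  rw [Algebra.smul_def, hn1, zero_mul]

private theorem SP1_jac : IsJacobsonRing ℤ := by
  rw [isJacobsonRing_iff_prime_eq]
  intro P hP
  by_cases h : P = ⊥
  · subst h
    rw [eq_bot_iff]
    intro x hx
    rw [Ideal.mem_jacobson_bot] at hx
    have h1 := hx x
    rw [Int.isUnit_iff] at h1
    rw [Ideal.mem_bot]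
    rcases h1 with h1 | h1
    · have h2 : x * x = 0 := by linarith
      exact mul_self_eq_zero.1 h2
    · nlinarith [mul_self_nonneg x]
  · have := hP.isMaximal h
    exact Ideal.jacobson_eq_self_of_isMaximal

/-- SP1.  `A = ℤ[S] ⊆ ℂ` is a finitely generated `ℤ`-algebra; `A / m` for a maximal ideal `m` is a
field which is a finitely generated `ℤ`-algebra, hence finite over `ℤ`
(`finite_of_finite_type_of_isJacobsonRing`), hence finite. -/
theorem exists_finite_field (S : Finset ℂ) :
    ∃ (K : Type) (_ : Field K) (_ : Finite K), Nonempty (Subring.closure (S : Set ℂ) →+* K) := by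
  have hft : Algebra.FiniteType ℤ (Algebra.adjoin ℤ (S : Set ℂ)) :=
    (Subalgebra.fg_iff_finiteType _).1 (Subalgebra.fg_adjoin_finset S)
  obtain ⟨m, hm⟩ := Ideal.exists_maximal (Algebra.adjoin ℤ (S : Set ℂ))
  let _ : Field ((Algebra.adjoin ℤ (S : Set ℂ)) ⧸ m) := Ideal.Quotient.field m
  have := SP1_jac
  have : Module.Finite ℤ ((Algebra.adjoin ℤ (S : Set ℂ)) ⧸ m) :=
    finite_of_finite_type_of_isJacobsonRing ℤ ((Algebra.adjoin ℤ (S : Set ℂ)) ⧸ m)
  have hle : Subring.closure (S : Set ℂ) ≤ (Algebra.adjoin ℤ (S : Set ℂ)).toSubring :=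
    Subring.closure_le.2 Algebra.subset_adjoin
  exact ⟨_, Ideal.Quotient.field m, SP1_fin _,
    ⟨(Ideal.Quotient.mk m).comp (Subring.inclusion hle)⟩⟩

/-- SP2. -/
theorem exists_lift {ρ : Type} (A : Subring ℂ) (p : MvPolynomial ρ ℂ) (hp : ∀ s, coeff s p ∈ A) :
    ∃ g : MvPolynomial ρ A, map A.subtype g = p := by
  have h : p ∈ Set.range (map A.subtype : MvPolynomial ρ A →+* MvPolynomial ρ ℂ) := by
    rw [MvPolynomial.mem_range_map_iff_coeffs_subset]
    intro c hc
    obtain ⟨s, hs, rfl⟩ := MvPolynomial.mem_coeffs_iff.1 hc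
    exact ⟨⟨coeff s p, hp s⟩, rfl⟩
  exact h

/-- SP3.  `v ↦ (eval v (F j))_j` is a bijection of `ρ → K`, inverse `v ↦ (eval v (G j))_j`, and
`eval (F v) f = v i`; the fibres of `v ↦ v i` are equal. -/
theorem eqFib_of_aut {ρ K : Type} [Fintype ρ] [DecidableEq ρ] [Field K] [Finite K]
    (F G : ρ → MvPolynomial ρ K) (h1 : ∀ j, aeval F (G j) = X j) (h2 : ∀ j, aeval G (F j) = X j)
    (f : MvPolynomial ρ K) (i : ρ) (hf : aeval F f = X i) :
    EqFib (fun v : ρ → K => eval v f) := by
  have key : ∀ (H : ρ → MvPolynomial ρ K) (p : MvPolynomial ρ K) (v : ρ → K),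
      eval (fun j => eval v (H j)) p = eval v (aeval H p) := by
    intro H p v
    induction p using MvPolynomial.induction_on with
    | C a => rw [eval_C, aeval_C]; exact (eval_C a).symm
    | add p q hp hq => rw [map_add, map_add, map_add, hp, hq]
    | mul_X p j hp => rw [map_mul, map_mul, map_mul, hp, aeval_X, eval_X]
  let e : (ρ → K) ≃ (ρ → K) :=
    { toFun := fun v j => eval v (F j)
      invFun := fun v j => eval v (G j)
      left_inv := by
        intro v
        funext j
        show eval (fun j => eval v (F j)) (G j) = v j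
        rw [key, h1, eval_X]
      right_inv := by
        intro v
        funext j
        show eval (fun j => eval v (G j)) (F j) = v j
        rw [key, h2, eval_X] }
  have h3 : ∀ c : K, Nat.card {v : ρ → K // eval v f = c} = Nat.card {v : ρ → K // v i = c} := by
    intro c
    apply Nat.card_congr
    refine (Equiv.subtypeEquiv e ?_).symm
    intro v
    have h4 : eval (e v) f = v i := by
      show eval (fun j => eval v (F j)) f = v i
      rw [key, hf, eval_X]
    rw [h4]
  have h5 : ∀ c c' : K, Nat.card {v : ρ → K // v i = c} = Nat.card {v : ρ → K // v i = c'} := by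
    intro c c'
    apply Nat.card_congr
    refine Equiv.subtypeEquiv (Equiv.addRight (fun _ => c' - c)) ?_
    intro v
    simp only [Equiv.coe_addRight, Pi.add_apply]
    constructor
    · intro h
      rw [h]
      ring
    · intro h
      linear_combination h
  intro c c'
  show Nat.card {v : ρ → K // eval v f = c} = Nat.card {v : ρ → K // eval v f = c'}
  rw [h3, h3, h5]

/-- SP4.  `#{v : ρ → K} = #{v : σ → K} * |K|^m`. -/
theorem eqFib_of_rename {σ K : Type} [Fintype σ] [Field K] [Finite K] (m : ℕ)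
    (f : MvPolynomial σ K)
    (h : EqFib (fun v : σ ⊕ Fin m → K => eval v (rename (Sum.inl : σ → σ ⊕ Fin m) f))) :
    EqFib (fun v : σ → K => eval v f) := by
  have h3 : ∀ c : K, Nat.card {v : σ ⊕ Fin m → K //
      eval v (rename (Sum.inl : σ → σ ⊕ Fin m) f) = c} =
      Nat.card {v : σ → K // eval v f = c} * Nat.card (Fin m → K) := by
    intro c
    rw [← Nat.card_prod]
    apply Nat.card_congr
    refine ⟨fun v => (⟨fun s => v.1 (Sum.inl s), ?_⟩, fun j => v.1 (Sum.inr j)),
      fun w => ⟨Sum.elim w.1.1 w.2, ?_⟩, ?_, ?_⟩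
    · have h4 := v.2
      rw [eval_rename] at h4
      exact h4
    · rw [eval_rename]
      exact w.1.2
    · intro v
      apply Subtype.ext
      funext x
      rcases x with x | x <;> rfl
    · intro w
      rfl
  intro c c'
  have h6 := h c c'
  show Nat.card {v : σ → K // eval v f = c} = Nat.card {v : σ → K // eval v f = c'}
  have h7 : Nat.card {v : σ ⊕ Fin m → K //
      eval v (rename (Sum.inl : σ → σ ⊕ Fin m) f) = c} = Nat.card {v : σ ⊕ Fin m → K //
      eval v (rename (Sum.inl : σ → σ ⊕ Fin m) f) = c'} := h6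
  rw [h3, h3] at h7
  have h8 : 0 < Nat.card (Fin m → K) := Nat.card_pos
  exact Nat.eq_of_mul_eq_mul_right h8 h7

private theorem SP5_map_aeval {R R' ρ : Type} [CommRing R] [CommRing R'] (η : R →+* R')
    (H : ρ → MvPolynomial ρ R) (B : MvPolynomial ρ R) :
    map η (aeval H B) = aeval (fun j => map η (H j)) (map η B) := by
  induction B using MvPolynomial.induction_on with
  | C a =>
    rw [map_C, aeval_C, aeval_C]
    show map η (C a) = C (η a)
    rw [map_C]
  | add p q hp hq => rw [map_add, map_add, map_add, map_add, hp, hq]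
  | mul_X p i hp => rw [map_mul, map_mul, map_mul, map_mul, hp, aeval_X, map_X, aeval_X]

/-- SP5.  Let `φ` be the automorphism in `σ ⊕ Fin m` variables with `φ (rename inl f) = X i`,
`F j = φ (X j)`, `G j = φ.symm (X j)`, `A` = subring generated by `S` and all coefficients of the
`F j`, `G j`; lift `F`, `G` to `A` (`exists_lift`); the relations `aeval F (G j) = X j` etc. hold over
`A` (`map_injective`), hence over `K`; then `eqFib_of_aut`, `eqFib_of_rename`. -/
theorem spread {σ : Type} [Fintype σ] [DecidableEq σ] {f : MvPolynomial σ ℂ}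
    (hf : IsStableCoord f) (S : Finset ℂ) :
    ∃ (A : Subring ℂ) (K : Type) (_ : Field K) (_ : Finite K) (θ : A →+* K), (∀ s ∈ S, s ∈ A) ∧
      ∀ g : MvPolynomial σ A, map A.subtype g = f → EqFib (fun v : σ → K => eval v (map θ g)) := by
  obtain ⟨m, hm, i, φ, hφ⟩ := hf
  obtain ⟨F, hF⟩ : ∃ F : σ ⊕ Fin m → MvPolynomial (σ ⊕ Fin m) ℂ, ∀ j, F j = φ (X j) :=
    ⟨_, fun _ => rfl⟩
  obtain ⟨G, hG⟩ : ∃ G : σ ⊕ Fin m → MvPolynomial (σ ⊕ Fin m) ℂ, ∀ j, G j = φ.symm (X j) :=
    ⟨_, fun _ => rfl⟩
  have hphi : ∀ p, φ p = aeval F p := by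
    intro p
    have h1 : (φ : MvPolynomial (σ ⊕ Fin m) ℂ →ₐ[ℂ] MvPolynomial (σ ⊕ Fin m) ℂ) = aeval F :=
      MvPolynomial.algHom_ext fun j => by
        rw [aeval_X, hF]
        rfl
    rw [← h1]
    rfl
  have hpsi : ∀ p, φ.symm p = aeval G p := by
    intro p
    have h1 : (φ.symm : MvPolynomial (σ ⊕ Fin m) ℂ →ₐ[ℂ] MvPolynomial (σ ⊕ Fin m) ℂ) = aeval G :=
      MvPolynomial.algHom_ext fun j => by
        rw [aeval_X, hG]
        rfl
    rw [← h1]
    rfl
  have r1 : ∀ j, aeval F (G j) = X j := fun j => by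
    rw [← hphi, hG, AlgEquiv.apply_symm_apply]
  have r2 : ∀ j, aeval G (F j) = X j := fun j => by
    rw [← hpsi, hF, AlgEquiv.symm_apply_apply]
  obtain ⟨T, hT⟩ : ∃ T : Finset ℂ, T = S ∪
      (Finset.univ.biUnion (fun j => (F j).support.image (fun s => coeff s (F j))) ∪
      Finset.univ.biUnion (fun j => (G j).support.image (fun s => coeff s (G j)))) := ⟨_, rfl⟩
  obtain ⟨A, hA⟩ : ∃ A : Subring ℂ, A = Subring.closure (T : Set ℂ) := ⟨_, rfl⟩
  obtain ⟨K, hK1, hK2, ⟨θ⟩⟩ := exists_finite_field T
  rw [← hA] at θ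
  have hTA : ∀ c ∈ T, c ∈ A := fun c hc => by
    rw [hA]
    exact Subring.subset_closure hc
  have hcF : ∀ j s, coeff s (F j) ∈ A := by
    intro j s
    by_cases h : coeff s (F j) = 0
    · rw [h]
      exact A.zero_mem
    · apply hTA
      rw [hT]
      refine Finset.mem_union_right _ (Finset.mem_union_left _ ?_)
      exact Finset.mem_biUnion.2 ⟨j, Finset.mem_univ j,
        Finset.mem_image.2 ⟨s, mem_support_iff.2 h, rfl⟩⟩
  have hcG : ∀ j s, coeff s (G j) ∈ A := by
    intro j s
    by_cases h : coeff s (G j) = 0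
    · rw [h]
      exact A.zero_mem
    · apply hTA
      rw [hT]
      refine Finset.mem_union_right _ (Finset.mem_union_right _ ?_)
      exact Finset.mem_biUnion.2 ⟨j, Finset.mem_univ j,
        Finset.mem_image.2 ⟨s, mem_support_iff.2 h, rfl⟩⟩
  choose FA hFA using fun j => exists_lift A (F j) (hcF j)
  choose GA hGA using fun j => exists_lift A (G j) (hcG j)
  have inj : Function.Injective
      (map A.subtype : MvPolynomial (σ ⊕ Fin m) A →+* MvPolynomial (σ ⊕ Fin m) ℂ) :=
    MvPolynomial.map_injective _ Subtype.coe_injective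
  have s1 : ∀ j, aeval FA (GA j) = X j := fun j => by
    apply inj
    rw [SP5_map_aeval, hGA, map_X]
    simp only [hFA]
    exact r1 j
  have s2 : ∀ j, aeval GA (FA j) = X j := fun j => by
    apply inj
    rw [SP5_map_aeval, hFA, map_X]
    simp only [hGA]
    exact r2 j
  refine ⟨A, K, hK1, hK2, θ, fun s hs => hTA s ?_, fun g hg => ?_⟩
  · rw [hT]
    exact Finset.mem_union_left _ hs
  · apply eqFib_of_rename m
    refine eqFib_of_aut (fun j => map θ (FA j)) (fun j => map θ (GA j)) (fun j => ?_)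
      (fun j => ?_) _ i ?_
    · rw [← SP5_map_aeval, s1, map_X]
    · rw [← SP5_map_aeval, s2, map_X]
    · have s3 : aeval FA (rename (Sum.inl : σ → σ ⊕ Fin m) g) = X i := by
        apply inj
        rw [SP5_map_aeval, map_rename, map_X, hg]
        simp only [hFA]
        rw [← hphi]
        exact hφ
      rw [← map_rename, ← SP5_map_aeval, s3, map_X]

end Vale.Agent.P295K
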