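import Vale.Agent.P295K.FF
import Vale.Agent.P295K.Spread

namespace Vale.Agent.P295K

open MvPolynomial

variable {σ : Type} [Fintype σ] [DecidableEq σ]

/-- ALG1.  Degree 0: any two points; degree at least 2: `b - c` has a multiple root for only finitely
many `c` (roots of `b'`), and `natDegree b` roots with multiplicity. -/
theorem exists_eval_eq (b : Polynomial ℂ) (hb : b.natDegree ≠ 1) :
    ∃ x y : ℂ, x ≠ y ∧ b.eval x = b.eval y := by
  classical
  by_cases h0 : b.natDegree = 0
  · obtain ⟨c, rfl⟩ := Polynomial.natDegree_eq_zero.mp h0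
    exact ⟨0, 1, zero_ne_one, by rw [Polynomial.eval_C, Polynomial.eval_C]⟩
  · have h2 : 2 ≤ b.natDegree := by omega
    obtain ⟨c, hc⟩ := Infinite.exists_notMem_finset
      (b.derivative.roots.toFinset.image fun x => b.eval x)
    set p : Polynomial ℂ := b - Polynomial.C c with hp
    have hdeg : p.natDegree = b.natDegree := Polynomial.natDegree_sub_C
    have hp0 : p ≠ 0 := by
      intro h
      rw [h, Polynomial.natDegree_zero] at hdeg
      omega
    have hder : p.derivative = b.derivative := by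
      rw [hp, Polynomial.derivative_sub, Polynomial.derivative_C, sub_zero]
    have hder0 : b.derivative ≠ 0 := by
      intro h
      have := Polynomial.derivative_eq_zero.mp h
      omega
    have hnod : p.roots.Nodup := by
      rw [Multiset.nodup_iff_count_le_one]
      intro x
      rw [Polynomial.count_roots]
      by_contra hlt
      push Not at hlt
      rw [Polynomial.one_lt_rootMultiplicity_iff_isRoot hp0, hder] at hlt
      apply hc
      rw [Finset.mem_image]
      refine ⟨x, ?_, ?_⟩
      · rw [Multiset.mem_toFinset, Polynomial.mem_roots hder0]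
        exact hlt.2
      · have h3 := hlt.1
        rw [hp, Polynomial.IsRoot.def, Polynomial.eval_sub, Polynomial.eval_C, sub_eq_zero] at h3
        exact h3
    have hcard : p.roots.card = p.natDegree := (IsAlgClosed.splits p).natDegree_eq_card_roots.symm
    have hlt : 1 < p.roots.toFinset.card := by
      rw [Multiset.toFinset_card_of_nodup hnod, hcard, hdeg]
      omega
    obtain ⟨x, hx, y, hy, hxy⟩ := Finset.one_lt_card.mp hlt
    refine ⟨x, y, hxy, ?_⟩
    rw [Multiset.mem_toFinset, Polynomial.mem_roots hp0, Polynomial.IsRoot.def, hp,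
      Polynomial.eval_sub, Polynomial.eval_C, sub_eq_zero] at hx hy
    rw [hx, hy]

/-- ALG2.  The ideal generated by the `a i` is principal and proper. -/
theorem exists_common_root (a : σ → Polynomial ℂ)
    (h : ¬ ∃ c : σ → Polynomial ℂ, ∑ i, c i * a i = 1) : ∃ x : ℂ, ∀ i, (a i).eval x = 0 := by
  obtain ⟨I, hI⟩ : ∃ I : Ideal (Polynomial ℂ), I = Ideal.span (Set.range a) := ⟨_, rfl⟩
  have hmem : ∀ i, a i ∈ I := fun i => by
    rw [hI]
    exact Ideal.subset_span ⟨i, rfl⟩
  have h1 : I ≠ ⊤ := by
    intro htop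
    apply h
    have h2 : (1 : Polynomial ℂ) ∈ Ideal.span (Set.range a) := by
      rw [← hI, htop]
      exact Submodule.mem_top
    rw [Ideal.mem_span_range_iff_exists_fun] at h2
    exact h2
  obtain ⟨g, hg⟩ := (IsPrincipalIdealRing.principal I).principal
  have hg' : I = Ideal.span {g} := hg
  have hgu : ¬ IsUnit g := fun hu => h1 (by rw [hg', Ideal.span_singleton_eq_top.2 hu])
  have hgdeg : g.degree ≠ 0 := by
    intro h3
    exact hgu (Polynomial.isUnit_iff_degree_eq_zero.2 h3)
  obtain ⟨x, hx⟩ := IsAlgClosed.exists_root g hgdeg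
  refine ⟨x, fun i => ?_⟩
  have h4 := hmem i
  rw [hg', Ideal.mem_span_singleton] at h4
  exact Polynomial.eval_eq_zero_of_dvd_of_eval_eq_zero h4 hx

/-- EVN.  `NF` commutes with ring homomorphisms. -/
theorem map_NF {R R' : Type} [CommRing R] [CommRing R'] (θ : R →+* R') (o : σ) (b : Polynomial R)
    (a : σ → Polynomial R) (d : σ → R) :
    map θ (NF o b a d) = NF o (b.map θ) (fun i => (a i).map θ) (fun i => θ (d i)) := by
  have h1 : ∀ p : Polynomial R, map θ (Polynomial.aeval (X o : MvPolynomial σ R) p) =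
      Polynomial.aeval (X o : MvPolynomial σ R') (p.map θ) := by
    intro p
    induction p using Polynomial.induction_on' with
    | add p q hp hq => rw [map_add, map_add, Polynomial.map_add, map_add, hp, hq]
    | monomial n c =>
      rw [Polynomial.map_monomial, Polynomial.aeval_monomial, Polynomial.aeval_monomial, map_mul,
        map_pow, map_X]
      show map θ (C c) * X o ^ n = C (θ c) * X o ^ n
      rw [map_C]
  unfold NF
  rw [map_add, map_add, h1, map_sum, map_sum]
  congr 1
  · congr 1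
    refine Finset.sum_congr rfl fun i _ => ?_
    rw [map_mul, h1, map_X]
  · refine Finset.sum_congr rfl fun i _ => ?_
    rw [map_mul, map_pow, map_C, map_X]

theorem eval_NF {R : Type} [CommRing R] (o : σ) (b : Polynomial R) (a : σ → Polynomial R)
    (d : σ → R) (v : σ → R) :
    eval v (NF o b a d) = b.eval (v o) + ∑ i, (a i).eval (v o) * v i + ∑ i, d i * v i ^ 2 := by
  have h1 : ∀ p : Polynomial R, eval v (Polynomial.aeval (X o : MvPolynomial σ R) p) =
      p.eval (v o) := by
    intro p
    induction p using Polynomial.induction_on' with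
    | add p q hp hq => rw [map_add, map_add, Polynomial.eval_add, hp, hq]
    | monomial n c =>
      rw [Polynomial.eval_monomial, Polynomial.aeval_monomial, map_mul, map_pow, eval_X]
      show eval v (C c) * v o ^ n = c * v o ^ n
      rw [eval_C]
  unfold NF
  rw [map_add, map_add, h1, map_sum, map_sum]
  congr 1
  · congr 1
    refine Finset.sum_congr rfl fun i _ => ?_
    rw [map_mul, h1, eval_X]
  · refine Finset.sum_congr rfl fun i _ => ?_
    rw [map_mul, map_pow, eval_C, eval_X]

/-- RED.  Reduction of the data of a stable coordinate in normal form to a finite field.  Apply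
`spread` to `S` together with `1/2`, all coefficients of `b`, of the `a i` and all `d i`; lift `b`, `a`,
`d` to `A` (`Polynomial.map` surjects onto polynomials with coefficients in `A`:
`Polynomial.lifts`), use `map_NF`, `eval_NF` and `ff`.  `d i ≠ 0` implies `a i = 0`; note
`θ d_i ≠ 0 → d_i ≠ 0`. -/
theorem reduction (o : σ) (b : Polynomial ℂ) (a : σ → Polynomial ℂ) (d : σ → ℂ) (ha : a o = 0)
    (hdo : d o = 0) (hd : ∀ i, d i ≠ 0 → a i = 0) (hs : IsStableCoord (NF o b a d))
    (S : Finset ℂ) :
    ∃ (A : Subring ℂ) (K : Type) (_ : Field K) (_ : Finite K) (θ : A →+* K)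
      (b' : Polynomial A) (a' : σ → Polynomial A), (∀ s ∈ S, s ∈ A) ∧ b'.map A.subtype = b ∧
      (∀ i, (a' i).map A.subtype = a i) ∧
      EqFib (fun x : {x : K // ∀ i, ((a' i).map θ).eval x = 0} => (b'.map θ).eval (x : K)) := by
  obtain ⟨T, hT⟩ : ∃ T : Finset ℂ, T = S ∪ ({(1 / 2 : ℂ)} ∪ (b.support.image b.coeff ∪
      (Finset.univ.biUnion (fun i => (a i).support.image (a i).coeff) ∪
        Finset.univ.image d))) := ⟨_, rfl⟩
  obtain ⟨A, K, hK1, hK2, θ, hA, hfib⟩ := spread hs T
  have hS : ∀ s ∈ S, s ∈ A := fun s h => hA s (by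
    rw [hT]
    exact Finset.mem_union_left _ h)
  have hhalf : (1 / 2 : ℂ) ∈ A := hA _ (by
    rw [hT]
    exact Finset.mem_union_right _ (Finset.mem_union_left _ (Finset.mem_singleton_self _)))
  have hbc : ∀ n, b.coeff n ∈ A := by
    intro n
    by_cases h : b.coeff n = 0
    · rw [h]
      exact A.zero_mem
    · apply hA
      rw [hT]
      refine Finset.mem_union_right _ (Finset.mem_union_right _ (Finset.mem_union_left _ ?_))
      exact Finset.mem_image.2 ⟨n, Polynomial.mem_support_iff.2 h, rfl⟩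
  have hac : ∀ i n, (a i).coeff n ∈ A := by
    intro i n
    by_cases h : (a i).coeff n = 0
    · rw [h]
      exact A.zero_mem
    · apply hA
      rw [hT]
      refine Finset.mem_union_right _ (Finset.mem_union_right _ (Finset.mem_union_right _
        (Finset.mem_union_left _ ?_)))
      exact Finset.mem_biUnion.2 ⟨i, Finset.mem_univ i,
        Finset.mem_image.2 ⟨n, Polynomial.mem_support_iff.2 h, rfl⟩⟩
  have hdc : ∀ i, d i ∈ A := by
    intro i
    apply hA
    rw [hT]
    refine Finset.mem_union_right _ (Finset.mem_union_right _ (Finset.mem_union_right _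
      (Finset.mem_union_right _ ?_)))
    exact Finset.mem_image.2 ⟨i, Finset.mem_univ i, rfl⟩
  have hlift : ∀ p : Polynomial ℂ, (∀ n, p.coeff n ∈ A) →
      ∃ p' : Polynomial A, p'.map A.subtype = p := by
    intro p hp
    have h1 : p ∈ Polynomial.lifts A.subtype := by
      rw [Polynomial.lifts_iff_coeff_lifts]
      intro n
      exact ⟨⟨p.coeff n, hp n⟩, rfl⟩
    exact (Polynomial.mem_lifts p).1 h1
  obtain ⟨b', hb'⟩ := hlift b hbc
  choose a' ha' using fun i => hlift (a i) (hac i)
  obtain ⟨d', hd'⟩ : ∃ d' : σ → A, ∀ i, A.subtype (d' i) = d i :=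
    ⟨fun i => ⟨d i, hdc i⟩, fun _ => rfl⟩
  have hinj : Function.Injective A.subtype := Subtype.coe_injective
  have hpinj : Function.Injective (Polynomial.map A.subtype) := Polynomial.map_injective _ hinj
  refine ⟨A, K, hK1, hK2, θ, b', a', hS, hb', ha', ?_⟩
  have hg : map A.subtype (NF o b' a' d') = NF o b a d := by
    rw [map_NF, hb']
    simp only [ha', hd']
  have h1 := hfib _ hg
  have h2 : (2 : K) ≠ 0 := by
    intro h0
    have h3 : (⟨1 / 2, hhalf⟩ : A) * 2 = 1 := by
      apply Subtype.ext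
      show (1 / 2 : ℂ) * 2 = 1
      norm_num
    have h4 := congrArg θ h3
    rw [map_mul, map_ofNat, h0, mul_zero, map_one] at h4
    exact zero_ne_one h4
  have haz : ∀ i, a i = 0 → a' i = 0 := fun i h => hpinj (by rw [ha', h, Polynomial.map_zero])
  refine ff h2 o (fun x => (b'.map θ).eval x) (fun i x => ((a' i).map θ).eval x)
    (fun i => θ (d' i)) ?_ ?_ ?_ ?_
  · intro x
    show ((a' o).map θ).eval x = 0
    rw [haz o ha, Polynomial.map_zero, Polynomial.eval_zero]
  · have h5 : d' o = 0 := hinj (by rw [hd', hdo, map_zero])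
    show θ (d' o) = 0
    rw [h5, map_zero]
  · intro i hi x
    show ((a' i).map θ).eval x = 0
    have h6 : d i ≠ 0 := by
      intro h7
      apply hi
      have h5 : d' i = 0 := hinj (by rw [hd', h7, map_zero])
      show θ (d' i) = 0
      rw [h5, map_zero]
    rw [haz i (hd i h6), Polynomial.map_zero, Polynomial.eval_zero]
  · have h8 : (fun v : σ → K => eval v (map θ (NF o b' a' d'))) =
        fun v : σ → K => (b'.map θ).eval (v o) + ∑ i, ((a' i).map θ).eval (v o) * v i
          + ∑ i, θ (d' i) * v i ^ 2 := by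
      funext v
      rw [map_NF, eval_NF]
    rw [h8] at h1
    exact h1

/-- NEG1.  `x ≠ y` with `b x = b y` (`exists_eval_eq`); `S = {x, y, (x - y)⁻¹}`; in `K` the function
`b` is injective (`card_eq_of_eqFib`: fibres have one element) but `θ x ≠ θ y`. -/
theorem neg_zero (o : σ) (b : Polynomial ℂ) (d : σ → ℂ) (hdo : d o = 0)
    (hs : IsStableCoord (NF o b 0 d)) : b.natDegree = 1 := by
  by_contra hb
  obtain ⟨x, y, hxy, hbxy⟩ := exists_eval_eq b hb
  obtain ⟨A, K, hK1, hK2, θ, b', a', hA, hb', ha', hfib⟩ :=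
    reduction o b 0 d rfl hdo (fun _ _ => rfl) hs {x, y, (x - y)⁻¹}
  have hinj : Function.Injective A.subtype := Subtype.coe_injective
  have hpinj : Function.Injective (Polynomial.map A.subtype) := Polynomial.map_injective _ hinj
  have ha0 : ∀ i, a' i = 0 := fun i => hpinj (by
    rw [ha', Polynomial.map_zero]
    rfl)
  have hxA : x ∈ A := hA x (by simp)
  have hyA : y ∈ A := hA y (by simp)
  have hzA : (x - y)⁻¹ ∈ A := hA _ (by simp)
  obtain ⟨x', hx'⟩ : ∃ x' : A, (x' : ℂ) = x := ⟨⟨x, hxA⟩, rfl⟩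
  obtain ⟨y', hy'⟩ : ∃ y' : A, (y' : ℂ) = y := ⟨⟨y, hyA⟩, rfl⟩
  obtain ⟨z', hz'⟩ : ∃ z' : A, (z' : ℂ) = (x - y)⁻¹ := ⟨⟨_, hzA⟩, rfl⟩
  have hne : θ x' ≠ θ y' := by
    intro h
    have h1 : z' * (x' - y') = 1 := by
      apply Subtype.ext
      show (z' : ℂ) * ((x' : ℂ) - (y' : ℂ)) = 1
      rw [hx', hy', hz']
      exact inv_mul_cancel₀ (sub_ne_zero.2 hxy)
    have h2 := congrArg θ h1
    rw [map_mul, map_sub, h, sub_self, mul_zero, map_one] at h2
    exact zero_ne_one h2
  have hbe : b'.eval x' = b'.eval y' := by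
    apply hinj
    rw [← Polynomial.eval_map_apply, ← Polynomial.eval_map_apply, hb']
    show b.eval (x' : ℂ) = b.eval (y' : ℂ)
    rw [hx', hy', hbxy]
  have hbe' : (b'.map θ).eval (θ x') = (b'.map θ).eval (θ y') := by
    rw [Polynomial.eval_map_apply, Polynomial.eval_map_apply, hbe]
  have hz : ∀ x : K, ∀ i, ((a' i).map θ).eval x = 0 := fun x i => by
    rw [ha0, Polynomial.map_zero, Polynomial.eval_zero]
  have hcard := card_eq_of_eqFib hfib ((b'.map θ).eval (θ x'))
  have hall : Nat.card {x : K // ∀ i, ((a' i).map θ).eval x = 0} = Nat.card K :=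
    Nat.card_congr (Equiv.subtypeUnivEquiv hz)
  rw [hall] at hcard
  have hKpos : 0 < Nat.card K := Nat.card_pos
  have hone := Nat.eq_of_mul_eq_mul_left hKpos (hcard.trans (mul_one _).symm)
  rw [Nat.card_eq_one_iff_unique] at hone
  obtain ⟨hsub, -⟩ := hone
  have h9 := hsub.elim ⟨⟨θ x', hz _⟩, rfl⟩ ⟨⟨θ y', hz _⟩, hbe'.symm⟩
  exact hne (congrArg (fun t => ((t : {v : {x : K // ∀ i, ((a' i).map θ).eval x = 0} //
    (b'.map θ).eval (v : K) = (b'.map θ).eval (θ x')}) : {x : K // ∀ i, ((a' i).map θ).eval x = 0}).1) h9)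

/-- NEG2.  `S = {x0, (leading coefficient of a i0)⁻¹, ((natDegree (a i0))! )⁻¹}`: in `K` the reduction of
`a i0` has at most `natDegree < char K ≤ |K|` roots, so
`Z = {x : all a i x = 0}` has `1 ≤ |Z| < |K|`; but `|K|` divides `|Z|` (`card_eq_of_eqFib`). -/
theorem neg_root (o : σ) (b : Polynomial ℂ) (a : σ → Polynomial ℂ) (d : σ → ℂ) (ha : a o = 0)
    (hdo : d o = 0) (hd : ∀ i, d i ≠ 0 → a i = 0) (i0 : σ) (hi0 : a i0 ≠ 0) (x0 : ℂ)
    (hx0 : ∀ i, (a i).eval x0 = 0) : ¬ IsStableCoord (NF o b a d) := by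
  intro hs
  obtain ⟨n, hn⟩ : ∃ n, n = (a i0).natDegree := ⟨_, rfl⟩
  obtain ⟨A, K, hK1, hK2, θ, b', a', hA, hb', ha', hfib⟩ :=
    reduction o b a d ha hdo hd hs {x0, (a i0).leadingCoeff⁻¹, ((n.factorial : ℕ) : ℂ)⁻¹}
  have hinj : Function.Injective A.subtype := Subtype.coe_injective
  have hpinj : Function.Injective (Polynomial.map A.subtype) := Polynomial.map_injective _ hinj
  have hxA : x0 ∈ A := hA x0 (by simp)
  have hlA : (a i0).leadingCoeff⁻¹ ∈ A := hA _ (by simp)
  have hfA : ((n.factorial : ℕ) : ℂ)⁻¹ ∈ A := hA _ (by simp)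
  obtain ⟨x', hx'⟩ : ∃ x' : A, (x' : ℂ) = x0 := ⟨⟨x0, hxA⟩, rfl⟩
  -- the characteristic is larger than `n`
  have hfac : ((n.factorial : ℕ) : K) ≠ 0 := by
    intro h
    have h1 : (⟨_, hfA⟩ : A) * ((n.factorial : ℕ) : A) = 1 := by
      apply Subtype.ext
      show ((n.factorial : ℕ) : ℂ)⁻¹ * (((n.factorial : ℕ) : A) : ℂ) = 1
      rw [Subring.coe_natCast]
      exact inv_mul_cancel₀ (Nat.cast_ne_zero.2 (Nat.factorial_ne_zero n))
    have h2 := congrArg θ h1
    rw [map_mul, map_natCast, h, mul_zero, map_one] at h2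
    exact zero_ne_one h2
  have hnK : n < Nat.card K := by
    haveI : Fintype K := Fintype.ofFinite K
    obtain ⟨p, hp⟩ := CharP.exists K
    have hpp : p.Prime := CharP.char_is_prime K p
    have h1 : ¬ p ∣ n.factorial := fun h => hfac ((CharP.cast_eq_zero_iff K p _).2 h)
    rw [hpp.dvd_factorial, not_le] at h1
    obtain ⟨k, -, hk⟩ := FiniteField.card K p
    rw [Nat.card_eq_fintype_card, hk]
    exact h1.trans_le (Nat.le_self_pow k.pos.ne' p)
  -- the reduction of `a i0` is not zero
  have hne : (a' i0).map θ ≠ 0 := by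
    intro h
    have h1 := congrArg (fun q => Polynomial.coeff q n) h
    simp only [Polynomial.coeff_map, Polynomial.coeff_zero] at h1
    have h2 : (⟨_, hlA⟩ : A) * (a' i0).coeff n = 1 := by
      apply Subtype.ext
      show (a i0).leadingCoeff⁻¹ * ((a' i0).coeff n : ℂ) = 1
      have h3 : ((a' i0).coeff n : ℂ) = (a i0).coeff n := by
        rw [← ha' i0, Polynomial.coeff_map]
        rfl
      rw [h3, hn]
      exact inv_mul_cancel₀ (Polynomial.leadingCoeff_ne_zero.2 hi0)
    have h4 := congrArg θ h2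
    rw [map_mul, h1, mul_zero, map_one] at h4
    exact zero_ne_one h4
  have hdeg : ((a' i0).map θ).natDegree ≤ n := by
    refine Polynomial.natDegree_map_le.trans ?_
    rw [hn, ← ha' i0, Polynomial.natDegree_map_eq_of_injective hinj]
  -- the zero set
  have hZle : Nat.card {x : K // ∀ i, ((a' i).map θ).eval x = 0} ≤ n := by
    classical
    have h1 : Nat.card {x : K // ∀ i, ((a' i).map θ).eval x = 0} ≤
        Nat.card ((a' i0).map θ).roots.toFinset := by
      refine Nat.card_le_card_of_injective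
        (fun x => ⟨x.1, Multiset.mem_toFinset.2 ((Polynomial.mem_roots hne).2 (x.2 i0))⟩) ?_
      intro x y hxy
      exact Subtype.ext (congrArg (fun t : ((a' i0).map θ).roots.toFinset => (t : K)) hxy)
    refine h1.trans ?_
    rw [Nat.card_eq_fintype_card, Fintype.card_coe]
    exact (Multiset.toFinset_card_le _).trans ((Polynomial.card_roots' _).trans hdeg)
  have hx0K : ∀ i, ((a' i).map θ).eval (θ x') = 0 := by
    intro i
    rw [Polynomial.eval_map_apply]
    have h1 : (a' i).eval x' = 0 := by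
      apply hinj
      rw [← Polynomial.eval_map_apply, ha', map_zero]
      show (a i).eval (x' : ℂ) = 0
      rw [hx', hx0]
    rw [h1, map_zero]
  have hZpos : 0 < Nat.card {x : K // ∀ i, ((a' i).map θ).eval x = 0} := by
    haveI : Nonempty {x : K // ∀ i, ((a' i).map θ).eval x = 0} := ⟨⟨θ x', hx0K⟩⟩
    exact Nat.card_pos
  have hcard := card_eq_of_eqFib hfib 0
  have hdvd : Nat.card K ∣ Nat.card {x : K // ∀ i, ((a' i).map θ).eval x = 0} := ⟨_, hcard.symm⟩
  exact absurd (Nat.le_of_dvd hZpos hdvd) (by omega)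

end Vale.Agent.P295K
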