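import Vale.Agent.P295K.Defs
import Vale.Agent.P295K.Inv

namespace Vale.Agent.P295K

open MvPolynomial

variable {σ : Type} [Fintype σ] [DecidableEq σ]

omit [Fintype σ] in
/-- elementary automorphism -/
theorem POS_elem (i : σ) (c : ℂ) (hc : c ≠ 0) (g : MvPolynomial σ ℂ)
    (hg : ∀ t : MvPolynomial σ ℂ, aeval (Function.update X i t) g = g) :
    ∃ ψ : MvPolynomial σ ℂ ≃ₐ[ℂ] MvPolynomial σ ℂ,
      ψ (X i) = C c * X i + g ∧ ∀ k, k ≠ i → ψ (X k) = X k := by
  have hcc : (C c : MvPolynomial σ ℂ) * C c⁻¹ = 1 := by
    rw [← C_mul, mul_inv_cancel₀ hc, C_1]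
  have hcc' : (C c⁻¹ : MvPolynomial σ ℂ) * C c = 1 := by
    rw [← C_mul, inv_mul_cancel₀ hc, C_1]
  let φ : MvPolynomial σ ℂ →ₐ[ℂ] MvPolynomial σ ℂ := aeval (Function.update X i (C c * X i + g))
  let χ : MvPolynomial σ ℂ →ₐ[ℂ] MvPolynomial σ ℂ := aeval (Function.update X i (C c⁻¹ * (X i - g)))
  have hφi : φ (X i) = C c * X i + g := by simp [φ]
  have hχi : χ (X i) = C c⁻¹ * (X i - g) := by simp [χ]
  have hφk : ∀ k, k ≠ i → φ (X k) = X k := fun k hk => by simp [φ, Function.update_of_ne hk]
  have hχk : ∀ k, k ≠ i → χ (X k) = X k := fun k hk => by simp [χ, Function.update_of_ne hk]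
  have hφg : φ g = g := hg _
  have hχg : χ g = g := hg _
  have hφC : ∀ r, φ (C r) = C r := fun r => by simp [φ, algebraMap_eq]
  have hχC : ∀ r, χ (C r) = C r := fun r => by simp [χ, algebraMap_eq]
  refine ⟨AlgEquiv.ofAlgHom φ χ ?_ ?_, hφi, hφk⟩
  · apply MvPolynomial.algHom_ext
    intro k
    rw [AlgHom.comp_apply, AlgHom.id_apply]
    by_cases hk : k = i
    · subst hk
      rw [hχi, map_mul, map_sub, hφC, hφi, hφg, add_sub_cancel_right, ← mul_assoc, hcc', one_mul]
    · rw [hχk k hk, hφk k hk]
  · apply MvPolynomial.algHom_ext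
    intro k
    rw [AlgHom.comp_apply, AlgHom.id_apply]
    by_cases hk : k = i
    · subst hk
      rw [hφi, map_add, map_mul, hχC, hχi, hχg, ← mul_assoc, hcc, one_mul, sub_add_cancel]
    · rw [hφk k hk, hχk k hk]

omit [Fintype σ] in
theorem POS_aeval (o i : σ) (hoi : o ≠ i) (t : MvPolynomial σ ℂ) (q : Polynomial ℂ) :
    (aeval (Function.update X i t) : MvPolynomial σ ℂ →ₐ[ℂ] MvPolynomial σ ℂ)
      (Polynomial.aeval (X o : MvPolynomial σ ℂ) q) = Polynomial.aeval (X o) q := by
  rw [← Polynomial.aeval_algHom_apply]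
  congr 1
  rw [aeval_X, Function.update_of_ne hoi]

theorem POS_sq (i : σ) (d : σ → ℂ) (hdi : d i = 0) (t : MvPolynomial σ ℂ) :
    (aeval (Function.update X i t) : MvPolynomial σ ℂ →ₐ[ℂ] MvPolynomial σ ℂ)
      (∑ k, C (d k) * X k ^ 2) = ∑ k, C (d k) * X k ^ 2 := by
  rw [map_sum]
  refine Finset.sum_congr rfl fun k _ => ?_
  by_cases hk : k = i
  · subst hk
    rw [hdi]; simp
  · rw [map_mul, map_pow, aeval_X, Function.update_of_ne hk]
    congr 1
    simp [algebraMap_eq]

/-- POS1.  The transvection `ψ (X j) = X j - p(X o) * X i`, other variables fixed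
(`AlgEquiv.ofAlgHom`, inverse with `+`), replaces `a i` by `a i - p * a j`. -/
theorem transvection (o : σ) (b : Polynomial ℂ) (a : σ → Polynomial ℂ) (d : σ → ℂ) (i j : σ)
    (hij : i ≠ j) (hio : i ≠ o) (hjo : j ≠ o) (hdj : d j = 0) (p : Polynomial ℂ) :
    ∃ ψ : MvPolynomial σ ℂ ≃ₐ[ℂ] MvPolynomial σ ℂ,
      ψ (NF o b a d) = NF o b (Function.update a i (a i - p * a j)) d := by
  obtain ⟨ψ, h1, h2⟩ := POS_elem j 1 one_ne_zero (-(Polynomial.aeval (X o) p * X i)) (fun t => by
    rw [map_neg, map_mul, POS_aeval o j (Ne.symm hjo), aeval_X, Function.update_of_ne hij])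
  refine ⟨ψ, ?_⟩
  have hpoly : ∀ q : Polynomial ℂ, ψ (Polynomial.aeval (X o : MvPolynomial σ ℂ) q) =
      Polynomial.aeval (X o : MvPolynomial σ ℂ) q := fun q => by
    have := Polynomial.aeval_algHom_apply (ψ : MvPolynomial σ ℂ →ₐ[ℂ] MvPolynomial σ ℂ)
      (X o : MvPolynomial σ ℂ) q
    have h3 : (ψ : MvPolynomial σ ℂ →ₐ[ℂ] MvPolynomial σ ℂ) (X o) = X o := h2 o (Ne.symm hjo)
    rw [h3] at this
    exact this.symm
  have hC : ∀ r : ℂ, ψ (C r) = C r := fun r => by
    have := ψ.commutes r
    rwa [algebraMap_eq] at this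
  have hX : ∀ k, ψ (X k) = X k + (if k = j then -(Polynomial.aeval (X o) p * X i) else 0) := by
    intro k
    by_cases hk : k = j
    · subst hk
      rw [h1, if_pos rfl, C_1, one_mul]
    · rw [h2 k hk, if_neg hk, add_zero]
  rw [NF, NF, map_add, map_add, hpoly, map_sum, map_sum]
  congr 1
  · congr 1
    have e1 : ∑ k, ψ (Polynomial.aeval (X o : MvPolynomial σ ℂ) (a k) * X k) =
        ∑ k, Polynomial.aeval (X o : MvPolynomial σ ℂ) (a k) * X k +
          Polynomial.aeval (X o) (a j) * (-(Polynomial.aeval (X o) p * X i)) := by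
      have : ∀ k, ψ (Polynomial.aeval (X o : MvPolynomial σ ℂ) (a k) * X k) =
          Polynomial.aeval (X o : MvPolynomial σ ℂ) (a k) * X k +
          (if k = j then Polynomial.aeval (X o) (a j) * (-(Polynomial.aeval (X o) p * X i)) else 0) := by
        intro k
        rw [map_mul, hpoly, hX, mul_add]
        congr 1
        split_ifs with hk
        · rw [hk]
        · rw [mul_zero]
      rw [Finset.sum_congr rfl fun k _ => this k, Finset.sum_add_distrib, Finset.sum_ite_eq']
      simp
    have e2 : ∑ k, Polynomial.aeval (X o : MvPolynomial σ ℂ) (Function.update a i (a i - p * a j) k) * X k =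
        ∑ k, Polynomial.aeval (X o : MvPolynomial σ ℂ) (a k) * X k +
          Polynomial.aeval (X o) (-(p * a j)) * X i := by
      have : ∀ k, Polynomial.aeval (X o : MvPolynomial σ ℂ) (Function.update a i (a i - p * a j) k) * X k =
          Polynomial.aeval (X o : MvPolynomial σ ℂ) (a k) * X k +
          (if k = i then Polynomial.aeval (X o) (-(p * a j)) * X i else 0) := by
        intro k
        by_cases hk : k = i
        · subst hk
          rw [Function.update_self, if_pos rfl, ← add_mul, ← map_add, sub_eq_add_neg]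
        · rw [Function.update_of_ne hk, if_neg hk, add_zero]
      rw [Finset.sum_congr rfl fun k _ => this k, Finset.sum_add_distrib, Finset.sum_ite_eq']
      simp
    rw [e1, e2, map_neg, map_mul]
    ring
  · refine Finset.sum_congr rfl fun k _ => ?_
    rw [map_mul, map_pow, hC]
    by_cases hk : k = j
    · subst hk
      rw [hdj]; simp
    · rw [h2 k hk]

/-- POS2.  Only one nonzero `a i`, a constant `c ≠ 0`: `NF = g + C c * X i`, `g` does not involve
`X i`; `ψ (X i) = C (1/c) * (X i - g)`, inverse `X i ↦ C c * X i + g`. -/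
theorem coord_of_single (o : σ) (b : Polynomial ℂ) (a : σ → Polynomial ℂ) (d : σ → ℂ) (i : σ)
    (hio : i ≠ o) (hdi : d i = 0) (c : ℂ) (hc : c ≠ 0) (hai : a i = Polynomial.C c)
    (h : ∀ j, j ≠ i → a j = 0) : IsCoord (NF o b a d) := by
  obtain ⟨ψ, h1, -⟩ := POS_elem i c hc
    (Polynomial.aeval (X o) b + ∑ k, C (d k) * X k ^ 2) (fun t => by
      rw [map_add, POS_aeval o i (Ne.symm hio), POS_sq i d hdi])
  refine ⟨i, ψ.symm, ?_⟩
  rw [AlgEquiv.symm_apply_eq, h1, NF]
  have : ∑ k, Polynomial.aeval (X o : MvPolynomial σ ℂ) (a k) * X k = C c * X i := by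
    rw [Finset.sum_eq_single i]
    · rw [hai, Polynomial.aeval_C, algebraMap_eq]
    · intro k _ hk
      rw [h k hk, map_zero, zero_mul]
    · intro hi
      exact absurd (Finset.mem_univ i) hi
  rw [this]
  ring

/-- POS3.  Strong induction on `∑ i, (if a i = 0 then 0 else (a i).natDegree + 1)`: if there are
`i ≠ j` with `a i, a j ≠ 0`, `(a j).degree ≤ (a i).degree`, replace `a i` by `a i % a j`
(`transvection` with `p = a i / a j`, `isCoord_map`); otherwise `coord_of_single`. -/
theorem pos (o : σ) (b : Polynomial ℂ) (a : σ → Polynomial ℂ) (d : σ → ℂ) (ha : a o = 0)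
    (hd : ∀ i, d i ≠ 0 → a i = 0) (h1 : ∃ c : σ → Polynomial ℂ, ∑ i, c i * a i = 1) :
    IsCoord (NF o b a d) := by
  classical
  have key : ∀ N : ℕ, ∀ a : σ → Polynomial ℂ, a o = 0 → (∀ i, d i ≠ 0 → a i = 0) →
      (∃ c : σ → Polynomial ℂ, ∑ i, c i * a i = 1) →
      (∑ i, (if a i = 0 then 0 else (a i).natDegree + 1)) = N → IsCoord (NF o b a d) := by
    intro N
    induction N using Nat.strong_induction_on with
    | _ N ih =>
      intro a ha hd h1 hN
      by_cases hex : ∃ i j, i ≠ j ∧ a i ≠ 0 ∧ a j ≠ 0 ∧ (a j).natDegree ≤ (a i).natDegree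
      · obtain ⟨i, j, hij, hai, haj, hdeg⟩ := hex
        have hio : i ≠ o := fun h => hai (h ▸ ha)
        have hjo : j ≠ o := fun h => haj (h ▸ ha)
        have hdi : d i = 0 := by
          by_contra h; exact hai (hd i h)
        have hdj : d j = 0 := by
          by_contra h; exact haj (hd j h)
        obtain ⟨ψ, hψ⟩ := transvection o b a d i j hij hio hjo hdj (a i / a j)
        have hmod : a i - a i / a j * a j = a i % a j := by
          have := EuclideanDomain.div_add_mod (a i) (a j)
          linear_combination -this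
        refine isCoord_map ψ ?_
        rw [hψ, hmod]
        refine ih _ ?_ (Function.update a i (a i % a j)) ?_ ?_ ?_ rfl
        · rw [← hN]
          apply Finset.sum_lt_sum
          · intro k _
            by_cases hk : k = i
            · subst hk
              rw [Function.update_self, if_neg hai]
              split_ifs with h0
              · omega
              · have h2 : (a k % a j).degree < (a j).degree := EuclideanDomain.mod_lt _ haj
                have h3 := Polynomial.natDegree_lt_natDegree h0 h2
                omega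
            · rw [Function.update_of_ne hk]
          · refine ⟨i, Finset.mem_univ _, ?_⟩
            rw [Function.update_self, if_neg hai]
            split_ifs with h0
            · omega
            · have h2 : (a i % a j).degree < (a j).degree := EuclideanDomain.mod_lt _ haj
              have h3 := Polynomial.natDegree_lt_natDegree h0 h2
              omega
        · rw [Function.update_of_ne (Ne.symm hio), ha]
        · intro k hk
          have hki : k ≠ i := fun h => hk (h ▸ hdi)
          rw [Function.update_of_ne hki]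
          exact hd k hk
        · obtain ⟨c, hc⟩ := h1
          refine ⟨Function.update c j (c j + c i * (a i / a j)), ?_⟩
          have hs : ∀ k, Function.update c j (c j + c i * (a i / a j)) k *
              Function.update a i (a i % a j) k = c k * a k +
              ((if k = j then c i * (a i / a j) * a j else 0) +
                (if k = i then -(c i * (a i / a j) * a j) else 0)) := by
            intro k
            by_cases hkj : k = j
            · subst hkj
              rw [Function.update_self, Function.update_of_ne (Ne.symm hij), if_pos rfl,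
                if_neg (Ne.symm hij)]
              ring
            · rw [Function.update_of_ne hkj, if_neg hkj]
              by_cases hki : k = i
              · subst hki
                rw [Function.update_self, if_pos rfl, ← hmod]
                ring
              · rw [Function.update_of_ne hki, if_neg hki]
                ring
          rw [Finset.sum_congr rfl fun k _ => hs k, Finset.sum_add_distrib, hc,
            Finset.sum_add_distrib, Finset.sum_ite_eq', Finset.sum_ite_eq']
          simp
      · obtain ⟨c, hc⟩ := h1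
        obtain ⟨i, hi⟩ : ∃ i, a i ≠ 0 := by
          by_contra h
          push Not at h
          have : ∑ i, c i * a i = 0 := Finset.sum_eq_zero fun i _ => by rw [h i, mul_zero]
          rw [this] at hc
          exact zero_ne_one hc
        have hother : ∀ j, j ≠ i → a j = 0 := by
          intro j hj
          by_contra haj
          rcases le_total (a j).natDegree (a i).natDegree with hle | hle
          · exact hex ⟨i, j, Ne.symm hj, hi, haj, hle⟩
          · exact hex ⟨j, i, hj, haj, hi, hle⟩
        have hci : c i * a i = 1 := by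
          rw [← hc, Finset.sum_eq_single i]
          · intro k _ hk
            rw [hother k hk, mul_zero]
          · intro h
            exact absurd (Finset.mem_univ i) h
        have hu : IsUnit (a i) := IsUnit.of_mul_eq_one (c i) (by rw [mul_comm]; exact hci)
        obtain ⟨r, hr, hr'⟩ := Polynomial.isUnit_iff.1 hu
        refine coord_of_single o b a d i (fun h => hi (h ▸ ha)) ?_ r hr.ne_zero hr'.symm hother
        by_contra h
        exact hi (hd i h)
  exact key _ a ha hd h1 rfl

/-- LINC.  `b = C β₁ * X + C β₀`, `β₁ ≠ 0`: `ψ (X o) = C (1/β₁) * (X o - C β₀ - ∑ C (d i) * X i ^ 2)`. -/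
theorem lin_coord (o : σ) (b : Polynomial ℂ) (d : σ → ℂ) (hd : d o = 0) (hb : b.natDegree = 1) :
    IsCoord (NF o b 0 d) := by
  obtain ⟨β₁, hβ, β₀, hb'⟩ := Polynomial.natDegree_eq_one.1 hb
  obtain ⟨ψ, h1, -⟩ := POS_elem o β₁ hβ
    (C β₀ + ∑ k, C (d k) * X k ^ 2) (fun t => by
      rw [map_add, POS_sq o d hd]
      congr 1
      simp [algebraMap_eq])
  refine ⟨o, ψ.symm, ?_⟩
  rw [AlgEquiv.symm_apply_eq, h1, NF, ← hb']
  simp only [map_add, map_mul, Polynomial.aeval_C, Polynomial.aeval_X, algebraMap_eq,
    Pi.zero_apply, map_zero, zero_mul, Finset.sum_const_zero, add_zero]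
  ring

end Vale.Agent.P295K
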