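import Vale.Agent.P295K.Inv
import Vale.Agent.P295K.Hess
import Vale.Agent.P295K.Diag
import Vale.Agent.P295K.Pos
import Vale.Agent.P295K.Neg

namespace Vale.Agent.P295K

open MvPolynomial

variable {σ : Type} [Fintype σ] [DecidableEq σ]

theorem nf_main (o : σ) (b : Polynomial ℂ) (a : σ → Polynomial ℂ) (d : σ → ℂ) (ha : a o = 0)
    (hdo : d o = 0) (hd : ∀ i, d i ≠ 0 → a i = 0) (hs : IsStableCoord (NF o b a d)) :
    IsCoord (NF o b a d) := by
  by_cases h1 : ∃ c : σ → Polynomial ℂ, ∑ i, c i * a i = 1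
  · exact pos o b a d ha hd h1
  · obtain ⟨x0, hx0⟩ := exists_common_root a h1
    by_cases h2 : ∃ i, a i ≠ 0
    · obtain ⟨i0, hi0⟩ := h2
      exact absurd hs (neg_root o b a d ha hdo hd i0 hi0 x0 hx0)
    · push Not at h2
      have h3 : a = 0 := funext h2
      subst h3
      exact lin_coord o b d hdo (neg_zero o b d hdo hs)

theorem quad_main (o : σ) (b : Polynomial ℂ) (a : σ → Polynomial ℂ) (Q : Matrix σ σ ℂ)
    (ha : a o = 0) (hQ : Q.IsSymm) (h0 : ∀ i, Q o i = 0) (hs : IsStableCoord (quadPoly o b a Q)) :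
    IsCoord (quadPoly o b a Q) := by
  obtain ⟨P, P', d, h1, h2, h3, h4, hd, h5⟩ := exists_diag o Q hQ h0
  obtain ⟨ψ, a', ha', e1⟩ := exists_diag_aut o b a Q ha P P' d h1 h2 h3 h4 h5
  obtain ⟨ψ', b'', a'', ha'', hd'', e2⟩ := exists_square o b a' d ha' hd
  refine isCoord_map ψ (isCoord_map ψ' ?_)
  have h6 := isStableCoord_map ψ' (isStableCoord_map ψ hs)
  rw [e1, e2] at h6 ⊢
  exact nf_main o b'' a'' d ha'' hd hd'' h6

theorem hess_main (o : σ) (f : MvPolynomial σ ℂ)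
    (h : ∀ i j, i ≠ o → j ≠ o → ∃ c : ℂ, pderiv i (pderiv j f) = C c) (hs : IsStableCoord f) :
    IsCoord f := by
  obtain ⟨b, a, Q, ha, hQ, h0, rfl⟩ := hess_form o f h
  exact quad_main o b a Q ha hQ h0 hs

theorem deg_two_main (f : MvPolynomial σ ℂ) (hf : f.totalDegree ≤ 2) (hs : IsStableCoord f) :
    IsCoord f := by
  by_cases h : Nonempty σ
  · obtain ⟨o⟩ := h
    exact hess_main o f (fun i j _ _ => hess_of_totalDegree f hf i j) hs
  · exfalso
    rw [not_nonempty_iff] at h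
    obtain ⟨m, hm, i, φ, hφ⟩ := hs
    have h1 : f = C (coeff 0 f) := eq_C_of_isEmpty f
    rw [h1, rename_C] at hφ
    have h2 : φ (C (coeff 0 f)) = C (coeff 0 f) := φ.commutes _
    rw [h2] at hφ
    have h3 := congrArg MvPolynomial.totalDegree hφ
    rw [totalDegree_C, totalDegree_X] at h3
    exact absurd h3 (by norm_num)

end Vale.Agent.P295K
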